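import Vale.Agent.P097.H85.Rect

/-! # P097 / ALPHA, row R1, part 2: maximal domain of vertical continuation, rectangle Hartogs
property -/

set_option linter.all false

open scoped ComplexConjugate Topology
open Filter Metric Set Complex

namespace Vale.Agent.P097.H85

open Vale.Agent.P097.TA Vale.Agent.P097.H543

/-- the sheared Cauchy integral over a rectangle -/
noncomputable def har (f : ℂ → ℂ → ℂ) (φ : ℂ → ℂ) (x₀ x₁ y₀ y₁ : ℝ) (t w : ℂ) : ℂ :=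
  (bdi x₀ x₁ y₀ y₁ (fun z => (z - w)⁻¹))⁻¹ *
    bdi x₀ x₁ y₀ y₁ (fun z => (z - w)⁻¹ * f (t - φ w + φ z) z)

theorem path_JD {f : ℂ → ℂ → ℂ} {Ω : Set (ℂ × ℂ)} (hΩ : IsOpen Ω) (hf : JD f Ω)
    {φ : ℂ → ℂ} {U : Set ℂ} (hU : IsOpen U) (hφ : DifferentiableOn ℂ φ U) {t w : ℂ} (hw : w ∈ U)
    {γ : ℝ → ℂ} (hγ : Continuous γ) {α β : ℝ}
    (hbd : ∀ s ∈ uIcc α β, γ s ∈ U ∧ γ s ≠ w ∧ (t - φ w + φ (γ s), γ s) ∈ Ω) :
    DifferentiableAt ℂ (fun p : ℂ × ℂ => ∫ s in α..β, (γ s - p.2)⁻¹ *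
      f (p.1 - φ p.2 + φ (γ s)) (γ s)) (t, w) := by
  set O₁ : Set ((ℂ × ℂ) × ℂ) := {q | (q.1.2 ∈ U ∧ q.2 ∈ U) ∧ q.2 ≠ q.1.2} with hO₁
  have hO₁o : IsOpen O₁ := by
    have h1 : IsOpen {q : (ℂ × ℂ) × ℂ | q.1.2 ∈ U} := hU.preimage (by fun_prop)
    have h2 : IsOpen {q : (ℂ × ℂ) × ℂ | q.2 ∈ U} := hU.preimage (by fun_prop)
    have h3 : IsOpen {q : (ℂ × ℂ) × ℂ | q.2 ≠ q.1.2} :=
      isOpen_ne_fun (by fun_prop) (by fun_prop)
    exact (h1.inter h2).inter h3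
  have hd1 : DifferentiableOn ℂ (fun q : (ℂ × ℂ) × ℂ => φ q.1.2) O₁ :=
    hφ.comp (by fun_prop) fun q hq => hq.1.1
  have hd2 : DifferentiableOn ℂ (fun q : (ℂ × ℂ) × ℂ => φ q.2) O₁ :=
    hφ.comp (by fun_prop) fun q hq => hq.1.2
  set m : (ℂ × ℂ) × ℂ → ℂ × ℂ := fun q => (q.1.1 - φ q.1.2 + φ q.2, q.2) with hm
  have hmd : DifferentiableOn ℂ m O₁ := by
    have h0 : DifferentiableOn ℂ (fun q : (ℂ × ℂ) × ℂ => q.1.1) O₁ := by fun_prop
    have h9 : DifferentiableOn ℂ (fun q : (ℂ × ℂ) × ℂ => q.2) O₁ := by fun_prop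
    exact ((h0.sub hd1).add hd2).prodMk h9
  have hO : IsOpen (O₁ ∩ m ⁻¹' Ω) := hmd.continuousOn.isOpen_inter_preimage hO₁o hΩ
  have hG : DifferentiableOn ℂ (fun q : (ℂ × ℂ) × ℂ =>
      (q.2 - q.1.2)⁻¹ * f (q.1.1 - φ q.1.2 + φ q.2) q.2) (O₁ ∩ m ⁻¹' Ω) := by
    apply DifferentiableOn.mul
    · apply DifferentiableOn.inv
      · fun_prop
      · intro q hq
        exact sub_ne_zero.2 hq.1.2
    · exact DifferentiableOn.comp hf (hmd.mono inter_subset_left) fun q hq => hq.2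
  have key := differentiableAt_integral_param hO hG (γ := γ) (ψ := fun _ => 1) (α := α) (β := β)
    (x₀ := (t, w)) hγ continuous_const (by
      intro s hs
      exact ⟨⟨⟨hw, (hbd s hs).1⟩, (hbd s hs).2.1⟩, (hbd s hs).2.2⟩)
  simpa only [one_mul] using key

theorem bdi_JD {f : ℂ → ℂ → ℂ} {Ω : Set (ℂ × ℂ)} (hΩ : IsOpen Ω) (hf : JD f Ω)
    {φ : ℂ → ℂ} {U : Set ℂ} (hU : IsOpen U) (hφ : DifferentiableOn ℂ φ U) {x₀ x₁ y₀ y₁ : ℝ}
    (hRU : Rc x₀ x₁ y₀ y₁ ⊆ U) {t w : ℂ} (hw : w ∈ Ro x₀ x₁ y₀ y₁)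
    (hbd : ∀ z ∈ Rc x₀ x₁ y₀ y₁, z ∉ Ro x₀ x₁ y₀ y₁ → (t - φ w + φ z, z) ∈ Ω) :
    DifferentiableAt ℂ (fun p : ℂ × ℂ => bdi x₀ x₁ y₀ y₁ (fun z => (z - p.2)⁻¹ *
      f (p.1 - φ p.2 + φ z) z)) (t, w) := by
  have hx : x₀ < x₁ := hw.1.1.trans hw.1.2
  have hy : y₀ < y₁ := hw.2.1.trans hw.2.2
  have hwU : w ∈ U := hRU (Ro_sub _ _ _ _ hw)
  have hne : ∀ z, z ∉ Ro x₀ x₁ y₀ y₁ → z ≠ w := by rintro z hz rfl; exact hz hw
  have h1 := path_JD hΩ hf hU hφ hwU (t := t) (γ := fun x : ℝ => (x : ℂ) + y₀ * I) (by fun_prop)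
    (α := x₀) (β := x₁) (by
      intro s hs
      rw [uIcc_of_le hx.le] at hs
      have hc : ((s : ℂ) + y₀ * I) ∈ Rc x₀ x₁ y₀ y₁ := ⟨by simpa using hs, by simp, by simpa using hy.le⟩
      have ho : ((s : ℂ) + y₀ * I) ∉ Ro x₀ x₁ y₀ y₁ := fun h => by
        have := h.2.1
        simp at this
      exact ⟨hRU hc, hne _ ho, hbd _ hc ho⟩)
  have h2 := path_JD hΩ hf hU hφ hwU (t := t) (γ := fun x : ℝ => (x : ℂ) + y₁ * I) (by fun_prop)
    (α := x₀) (β := x₁) (by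
      intro s hs
      rw [uIcc_of_le hx.le] at hs
      have hc : ((s : ℂ) + y₁ * I) ∈ Rc x₀ x₁ y₀ y₁ := ⟨by simpa using hs, by simpa using hy.le, by simp⟩
      have ho : ((s : ℂ) + y₁ * I) ∉ Ro x₀ x₁ y₀ y₁ := fun h => by
        have := h.2.2
        simp at this
      exact ⟨hRU hc, hne _ ho, hbd _ hc ho⟩)
  have h3 := path_JD hΩ hf hU hφ hwU (t := t) (γ := fun y : ℝ => (x₁ : ℂ) + y * I) (by fun_prop)
    (α := y₀) (β := y₁) (by
      intro s hs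
      rw [uIcc_of_le hy.le] at hs
      have hc : ((x₁ : ℂ) + s * I) ∈ Rc x₀ x₁ y₀ y₁ :=
        ⟨⟨by simpa using hx.le, by simp⟩, by simpa using hs⟩
      have ho : ((x₁ : ℂ) + s * I) ∉ Ro x₀ x₁ y₀ y₁ := fun h => by
        have := h.1.2
        simp at this
      exact ⟨hRU hc, hne _ ho, hbd _ hc ho⟩)
  have h4 := path_JD hΩ hf hU hφ hwU (t := t) (γ := fun y : ℝ => (x₀ : ℂ) + y * I) (by fun_prop)
    (α := y₀) (β := y₁) (by
      intro s hs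
      rw [uIcc_of_le hy.le] at hs
      have hc : ((x₀ : ℂ) + s * I) ∈ Rc x₀ x₁ y₀ y₁ :=
        ⟨⟨by simp, by simpa using hx.le⟩, by simpa using hs⟩
      have ho : ((x₀ : ℂ) + s * I) ∉ Ro x₀ x₁ y₀ y₁ := fun h => by
        have := h.1.1
        simp at this
      exact ⟨hRU hc, hne _ ho, hbd _ hc ho⟩)
  exact ((h1.sub h2).add (h3.const_smul I)).sub (h4.const_smul I)

theorem har_JD {f : ℂ → ℂ → ℂ} {Ω : Set (ℂ × ℂ)} (hΩ : IsOpen Ω) (hf : JD f Ω)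
    {φ : ℂ → ℂ} {U : Set ℂ} (hU : IsOpen U) (hφ : DifferentiableOn ℂ φ U) {x₀ x₁ y₀ y₁ : ℝ}
    (hRU : Rc x₀ x₁ y₀ y₁ ⊆ U) {T : Set ℂ}
    (hbd : ∀ τ ∈ T, ∀ z ∈ Rc x₀ x₁ y₀ y₁, z ∉ Ro x₀ x₁ y₀ y₁ → (τ + φ z, z) ∈ Ω) :
    JD (har f φ x₀ x₁ y₀ y₁) {p | p.2 ∈ Ro x₀ x₁ y₀ y₁ ∧ p.1 - φ p.2 ∈ T} := by
  rintro ⟨t, w⟩ ⟨hw, ht⟩
  simp only at hw ht
  apply DifferentiableAt.differentiableWithinAt
  have h1 := bdi_JD hΩ hf hU hφ hRU (t := t) hw (fun z hz hz' => hbd _ ht z hz hz')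
  have h2 := bdi_JD (f := fun _ _ => 1) isOpen_univ (differentiableOn_const _) hU hφ hRU (t := t) hw
    (fun z hz hz' => mem_univ _)
  simp only [mul_one] at h2
  exact (h2.inv (bdi_kernel_ne hw)).mul h1

theorem har_eq {f : ℂ → ℂ → ℂ} {Ω : Set (ℂ × ℂ)} (hΩ : IsOpen Ω) (hf : JD f Ω)
    {φ : ℂ → ℂ} {U : Set ℂ} (hU : IsOpen U) (hφ : DifferentiableOn ℂ φ U) {x₀ x₁ y₀ y₁ : ℝ}
    (hRU : Rc x₀ x₁ y₀ y₁ ⊆ U) {t w : ℂ} (hw : w ∈ Ro x₀ x₁ y₀ y₁)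
    (hin : ∀ z ∈ Rc x₀ x₁ y₀ y₁, (t - φ w + φ z, z) ∈ Ω) :
    har f φ x₀ x₁ y₀ y₁ t w = f t w := by
  have hd : ∀ z ∈ Rc x₀ x₁ y₀ y₁, DifferentiableAt ℂ (fun z => f (t - φ w + φ z) z) z := by
    intro ζ hζ
    have h1 : DifferentiableAt ℂ (fun p : ℂ × ℂ => f p.1 p.2) (t - φ w + φ ζ, ζ) :=
      JD_at hf hΩ (hin ζ hζ)
    have h2 : DifferentiableAt ℂ (fun ζ : ℂ => (t - φ w + φ ζ, ζ)) ζ :=
      ((hφ.differentiableAt (hU.mem_nhds (hRU hζ))).const_add _).prodMk differentiableAt_id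
    exact DifferentiableAt.comp ζ (f := fun ζ : ℂ => (t - φ w + φ ζ, ζ)) h1 h2
  unfold har
  rw [bdi_cauchy hw hd, inv_mul_cancel_left₀ (bdi_kernel_ne hw)]
  congr 1
  ring

/-! ## vertical continuation -/

/-- open subset of `b < Im t`, closed under vertical descent -/
structure Dn (b : ℝ) (S : Set (ℂ × ℂ)) : Prop where
  op : IsOpen S
  low : ∀ t w : ℂ, (t, w) ∈ S → b < t.im
  down : ∀ (t w : ℂ) (s : ℝ), (t, w) ∈ S → b < s → s ≤ t.im → ((t.re : ℂ) + s * I, w) ∈ S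

theorem Dn.inter {b : ℝ} {S S' : Set (ℂ × ℂ)} (h : Dn b S) (h' : Dn b S') : Dn b (S ∩ S') :=
  ⟨h.op.inter h'.op, fun t w ht => h.low t w ht.1,
    fun t w s ht hb hs => ⟨h.down t w s ht.1 hb hs, h'.down t w s ht.2 hb hs⟩⟩

/-- `g` is an extension of `f` (given on the base `B`) to `S`, by vertical continuation -/
structure IsExt (b : ℝ) (f : ℂ → ℂ → ℂ) (B S : Set (ℂ × ℂ)) (g : ℂ → ℂ → ℂ) : Prop where
  dn : Dn b S
  jd : JD g S
  eq : ∀ p ∈ S, p ∈ B → g p.1 p.2 = f p.1 p.2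
  above : ∀ t w : ℂ, (t, w) ∈ S → ∃ s : ℝ, b < s ∧ s ≤ t.im ∧ ((t.re : ℂ) + s * I, w) ∈ B

/-- identity theorem on a vertical segment -/
theorem vert_eq {g g' : ℂ → ℂ → ℂ} {S S' : Set (ℂ × ℂ)} (hS : IsOpen S) (hS' : IsOpen S')
    (hg : JD g S) (hg' : JD g' S') {t w : ℂ} {s : ℝ} (hs : s ≤ t.im)
    (hseg : ∀ σ : ℝ, s ≤ σ → σ ≤ t.im → ((t.re : ℂ) + σ * I, w) ∈ S ∧
      ((t.re : ℂ) + σ * I, w) ∈ S')
    (hev : ∀ᶠ z in 𝓝 ((t.re : ℂ) + s * I), g z w = g' z w) : g t w = g' t w := by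
  set V : Set ℂ := {z | z.re = t.re ∧ s ≤ z.im ∧ z.im ≤ t.im} with hV
  have hVc : Convex ℝ V := by
    intro x hx y hy a c ha hc hac
    refine ⟨?_, ?_, ?_⟩
    · simp only [add_re, smul_re, smul_eq_mul, hx.1, hy.1]
      rw [← add_mul, hac, one_mul]
    · simp only [add_im, smul_im, smul_eq_mul]
      have e1 := mul_le_mul_of_nonneg_left hx.2.1 ha
      have e2 := mul_le_mul_of_nonneg_left hy.2.1 hc
      have e3 : a * s + c * s = s := by rw [← add_mul, hac, one_mul]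
      linarith
    · simp only [add_im, smul_im, smul_eq_mul]
      have e1 := mul_le_mul_of_nonneg_left hx.2.2 ha
      have e2 := mul_le_mul_of_nonneg_left hy.2.2 hc
      have e3 : a * t.im + c * t.im = t.im := by rw [← add_mul, hac, one_mul]
      linarith
  have hmem : ∀ z ∈ V, (z, w) ∈ S ∧ (z, w) ∈ S' := by
    intro z hz
    have h := hseg z.im hz.2.1 hz.2.2
    have hz' : (t.re : ℂ) + z.im * I = z := by
      apply Complex.ext
      · simp [hz.1]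
      · simp
    rwa [hz'] at h
  have han : ∀ {h : ℂ → ℂ → ℂ} {N : Set (ℂ × ℂ)}, IsOpen N → JD h N → (∀ z ∈ V, (z, w) ∈ N) →
      AnalyticOnNhd ℂ (fun z => h z w) V := by
    intro h N hN hh hVN z hz
    have ho : IsOpen {z : ℂ | (z, w) ∈ N} := hN.preimage (by fun_prop)
    have hd : DifferentiableOn ℂ (fun z => h z w) {z : ℂ | (z, w) ∈ N} := by
      intro z hz
      apply DifferentiableAt.differentiableWithinAt
      exact DifferentiableAt.comp z (f := fun z : ℂ => (z, w)) (JD_at hh hN hz)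
        (differentiableAt_id.prodMk (differentiableAt_const _))
    exact hd.analyticAt (ho.mem_nhds (hVN z hz))
  have h1 := han hS hg fun z hz => (hmem z hz).1
  have h2 := han hS' hg' fun z hz => (hmem z hz).2
  have h0 : ((t.re : ℂ) + s * I) ∈ V := ⟨by simp, by simp, by simpa using hs⟩
  have h3 := h1.eqOn_of_preconnected_of_eventuallyEq h2 hVc.isPreconnected h0 hev
  exact h3 ⟨rfl, hs, le_refl _⟩

theorem IsExt.unique {b : ℝ} {f : ℂ → ℂ → ℂ} {B S S' : Set (ℂ × ℂ)} {g g' : ℂ → ℂ → ℂ}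
    (hB : IsOpen B) (h : IsExt b f B S g) (h' : IsExt b f B S' g') {t w : ℂ} (ht : (t, w) ∈ S)
    (ht' : (t, w) ∈ S') : g t w = g' t w := by
  obtain ⟨s, hbs, hst, hsB⟩ := h.above t w ht
  apply vert_eq h.dn.op h'.dn.op h.jd h'.jd hst
  · intro σ hσ1 hσ2
    exact ⟨h.dn.down t w σ ht (by linarith) hσ2, h'.dn.down t w σ ht' (by linarith) hσ2⟩
  · have hO : IsOpen {z : ℂ | (z, w) ∈ S ∩ S' ∩ B} :=
      ((h.dn.op.inter h'.dn.op).inter hB).preimage (by fun_prop)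
    filter_upwards [hO.mem_nhds (show _ ∈ {z : ℂ | (z, w) ∈ S ∩ S' ∩ B} from
      ⟨⟨h.dn.down t w s ht hbs hst, h'.dn.down t w s ht' hbs hst⟩, hsB⟩)] with z hz
    rw [h.eq (z, w) hz.1.1 hz.2, h'.eq (z, w) hz.1.2 hz.2]

/-- the maximal domain of vertical continuation -/
def Mx (b : ℝ) (f : ℂ → ℂ → ℂ) (B : Set (ℂ × ℂ)) : Set (ℂ × ℂ) :=
  {p | ∃ (S : Set (ℂ × ℂ)) (g : ℂ → ℂ → ℂ), IsExt b f B S g ∧ p ∈ S}

open Classical in
/-- the continued function -/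
noncomputable def gx (b : ℝ) (f : ℂ → ℂ → ℂ) (B : Set (ℂ × ℂ)) (t w : ℂ) : ℂ :=
  if h : (t, w) ∈ Mx b f B then h.choose_spec.choose t w else 0

theorem gx_eq {b : ℝ} {f : ℂ → ℂ → ℂ} {B S : Set (ℂ × ℂ)} {g : ℂ → ℂ → ℂ} (hB : IsOpen B)
    (h : IsExt b f B S g) {t w : ℂ} (ht : (t, w) ∈ S) : gx b f B t w = g t w := by
  have hM : (t, w) ∈ Mx b f B := ⟨S, g, h, ht⟩
  unfold gx
  rw [dif_pos hM]
  have h2 := hM.choose_spec.choose_spec
  exact IsExt.unique hB h2.1 h h2.2 ht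

theorem isExt_Mx {b : ℝ} {f : ℂ → ℂ → ℂ} {B : Set (ℂ × ℂ)} (hB : IsOpen B) :
    IsExt b f B (Mx b f B) (gx b f B) := by
  refine ⟨⟨?_, ?_, ?_⟩, ?_, ?_, ?_⟩
  · rw [isOpen_iff_mem_nhds]
    rintro p ⟨S, g, h, hp⟩
    exact mem_of_superset (h.dn.op.mem_nhds hp) fun q hq => ⟨S, g, h, hq⟩
  · rintro t w ⟨S, g, h, hp⟩
    exact h.dn.low t w hp
  · rintro t w s ⟨S, g, h, hp⟩ hb hs
    exact ⟨S, g, h, h.dn.down t w s hp hb hs⟩
  · rintro p ⟨S, g, h, hp⟩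
    apply DifferentiableAt.differentiableWithinAt
    refine (JD_at h.jd h.dn.op hp).congr_of_eventuallyEq ?_
    filter_upwards [h.dn.op.mem_nhds hp] with q hq
    exact gx_eq hB h hq
  · rintro ⟨t, w⟩ ⟨S, g, h, hp⟩ hpB
    rw [gx_eq hB h hp]
    exact h.eq _ hp hpB
  · rintro t w ⟨S, g, h, hp⟩
    exact h.above t w hp

theorem IsExt.sub {b : ℝ} {f : ℂ → ℂ → ℂ} {B S : Set (ℂ × ℂ)} {g : ℂ → ℂ → ℂ}
    (h : IsExt b f B S g) : S ⊆ Mx b f B := fun p hp => ⟨S, g, h, hp⟩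

/-- rectangle Hartogs property -/
structure RH (b : ℝ) (M : Set (ℂ × ℂ)) : Prop where
  dn : Dn b M
  har : ∀ (φ : ℂ → ℂ) (U : Set ℂ) (x₀ x₁ y₀ y₁ α a β : ℝ), IsOpen U → DifferentiableOn ℂ φ U →
    Rc x₀ x₁ y₀ y₁ ⊆ U → 0 < β →
    (∀ ζ : ℂ, |ζ.re - α| < a → -β < ζ.im → ζ.im < 0 → ∀ w ∈ Rc x₀ x₁ y₀ y₁,
      w ∉ Ro x₀ x₁ y₀ y₁ → (ζ + φ w, w) ∈ M) →
    (∀ ζ : ℂ, |ζ.re - α| < a → -β < ζ.im → ζ.im ≤ -β / 2 → ∀ w ∈ Rc x₀ x₁ y₀ y₁,
      (ζ + φ w, w) ∈ M) →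
    ∀ ζ : ℂ, |ζ.re - α| < a → -β < ζ.im → ζ.im < 0 → ∀ w ∈ Ro x₀ x₁ y₀ y₁, (ζ + φ w, w) ∈ M

theorem RH.inter {b : ℝ} {M M' : Set (ℂ × ℂ)} (h : RH b M) (h' : RH b M') : RH b (M ∩ M') := by
  refine ⟨h.dn.inter h'.dn, ?_⟩
  intro φ U x₀ x₁ y₀ y₁ α a β hU hφ hR hβ h1 h2 ζ hζ1 hζ2 hζ3 w hw
  exact ⟨h.har φ U x₀ x₁ y₀ y₁ α a β hU hφ hR hβ
      (fun ζ a1 a2 a3 w a4 a5 => (h1 ζ a1 a2 a3 w a4 a5).1)
      (fun ζ a1 a2 a3 w a4 => (h2 ζ a1 a2 a3 w a4).1) ζ hζ1 hζ2 hζ3 w hw,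
    h'.har φ U x₀ x₁ y₀ y₁ α a β hU hφ hR hβ
      (fun ζ a1 a2 a3 w a4 a5 => (h1 ζ a1 a2 a3 w a4 a5).2)
      (fun ζ a1 a2 a3 w a4 => (h2 ζ a1 a2 a3 w a4).2) ζ hζ1 hζ2 hζ3 w hw⟩

theorem isExt_self {b : ℝ} {f : ℂ → ℂ → ℂ} {B : Set (ℂ × ℂ)} (hB : Dn b B) (hf : JD f B) :
    IsExt b f B B f := by
  refine ⟨hB, hf, fun _ _ _ => rfl, fun t w h => ⟨t.im, hB.low t w h, le_refl _, ?_⟩⟩
  have : (t.re : ℂ) + t.im * I = t := Complex.re_add_im t
  rwa [this]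

theorem base_sub {b : ℝ} {f : ℂ → ℂ → ℂ} {B : Set (ℂ × ℂ)} (hB : Dn b B) (hf : JD f B) :
    B ⊆ Mx b f B := (isExt_self hB hf).sub

theorem rh_Mx {b : ℝ} {f : ℂ → ℂ → ℂ} {B : Set (ℂ × ℂ)} (hB : Dn b B) (hfB : JD f B) :
    RH b (Mx b f B) := by
  have hE := isExt_Mx (b := b) (f := f) hB.op
  refine ⟨hE.dn, ?_⟩
  intro φ U x₀ x₁ y₀ y₁ α a β hU hφ hR hβ h1 h2 ζ₁ hζ1 hζ2 hζ3 w₁ hw₁
  set M := Mx b f B with hM
  set G := gx b f B with hG
  set T : Set ℂ := {ζ | |ζ.re - α| < a ∧ -β < ζ.im ∧ ζ.im < 0} with hT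
  have hTo : IsOpen T := by
    have a1 : IsOpen {ζ : ℂ | |ζ.re - α| < a} := isOpen_lt (by fun_prop) continuous_const
    have a2 : IsOpen {ζ : ℂ | -β < ζ.im} := isOpen_lt continuous_const continuous_im
    have a3 : IsOpen {ζ : ℂ | ζ.im < 0} := isOpen_lt continuous_im continuous_const
    exact a1.inter (a2.inter a3)
  have hbd : ∀ τ ∈ T, ∀ z ∈ Rc x₀ x₁ y₀ y₁, z ∉ Ro x₀ x₁ y₀ y₁ → (τ + φ z, z) ∈ M :=
    fun τ hτ z hz hz' => h1 τ hτ.1 hτ.2.1 hτ.2.2 z hz hz'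
  have hH := har_JD hE.dn.op hE.jd hU hφ hR hbd
  set N : Set (ℂ × ℂ) := {p | p.2 ∈ Ro x₀ x₁ y₀ y₁ ∧ p.1 - φ p.2 ∈ T} with hN
  have hNo : IsOpen N := by
    have h1 : ContinuousOn (fun p : ℂ × ℂ => p.1 - φ p.2) {p | p.2 ∈ Ro x₀ x₁ y₀ y₁} := by
      apply ContinuousOn.sub (by fun_prop)
      exact (hφ.continuousOn.mono ((Ro_sub _ _ _ _).trans hR)).comp (by fun_prop)
        fun p hp => hp
    exact h1.isOpen_inter_preimage ((isOpen_Ro _ _ _ _).preimage continuous_snd) hTo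
  -- points of `N` below height `-β/2` are in `M`, above height `b`
  have hlowM : ∀ t w : ℂ, (t, w) ∈ N → (t - φ w).im ≤ -β / 2 → (t, w) ∈ M := by
    intro t w h h'
    have := h2 (t - φ w) h.2.1 h.2.2.1 h' w (Ro_sub _ _ _ _ h.1)
    simpa using this
  -- the descended point
  have hdesc : ∀ t w : ℂ, (t, w) ∈ N → ∀ σ : ℝ, σ < 0 → -β < σ →
      ((t.re : ℂ) + ((σ + (φ w).im : ℝ) : ℂ) * I, w) ∈ N := by
    intro t w h σ h1 h2
    refine ⟨h.1, ?_, ?_, ?_⟩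
    · have := h.2.1
      simp only [sub_re] at this
      simpa using this
    · simpa using h2
    · simpa using h1
  have heq : ∀ p ∈ M, p ∈ N → har G φ x₀ x₁ y₀ y₁ p.1 p.2 = G p.1 p.2 := by
    rintro ⟨t, w⟩ hp hpN
    simp only
    by_cases hlow : (t - φ w).im < -β / 2
    · apply har_eq hE.dn.op hE.jd hU hφ hR hpN.1
      intro z hz
      exact h2 _ hpN.2.1 hpN.2.2.1 hlow.le z hz
    · push Not at hlow
      have hq := hdesc t w hpN (-3 * β / 4) (by linarith) (by linarith)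
      set s : ℝ := -3 * β / 4 + (φ w).im with hs
      have hst : s ≤ t.im := by
        simp only [sub_im] at hlow
        rw [hs]; linarith
      have hqM := hlowM _ _ hq (by
        simp only [sub_im, add_im, ofReal_im, mul_im, ofReal_re, I_im, mul_one, I_re, mul_zero,
          add_zero, zero_add]
        rw [hs]; linarith)
      have hbs : b < s := by
        have := hE.dn.low _ _ hqM
        simpa using this
      symm
      apply vert_eq hE.dn.op hNo hE.jd hH hst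
      · intro σ h1 h2
        refine ⟨hE.dn.down t w σ hp (by linarith) h2, ?_⟩
        have h3 := hdesc t w hpN (σ - (φ w).im) (by
          have := hpN.2.2.2
          simp only [sub_im] at this
          linarith) (by rw [hs] at h1; linarith)
        simpa using h3
      · have hcz : Continuous fun z : ℂ => (z, w) := by fun_prop
        have ho : IsOpen {z : ℂ | (z, w) ∈ N ∧ (z - φ w).im < -β / 2} :=
          (hNo.preimage hcz).inter
            (isOpen_lt (Complex.continuous_im.comp (continuous_id.sub continuous_const))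
              continuous_const)
        filter_upwards [ho.mem_nhds (show _ ∈ {z : ℂ | (z, w) ∈ N ∧ (z - φ w).im < -β / 2} from
          ⟨hq, by
            simp only [sub_im, add_im, ofReal_im, mul_im, ofReal_re, I_im, mul_one, I_re, mul_zero,
              add_zero, zero_add]
            rw [hs]; linarith⟩)] with z hz
        symm
        apply har_eq hE.dn.op hE.jd hU hφ hR hpN.1
        intro ζ hζ
        exact h2 _ hz.1.2.1 hz.1.2.2.1 hz.2.le ζ hζ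
  obtain ⟨F, hF, hFM, hFN⟩ := JD_glue hE.dn.op hNo hE.jd hH heq
  have hExt : IsExt b f B (M ∪ N) F := by
    refine ⟨⟨hE.dn.op.union hNo, ?_, ?_⟩, hF, ?_, ?_⟩
    · rintro t w (h | h)
      · exact hE.dn.low t w h
      · by_cases hlow : (t - φ w).im ≤ -β / 2
        · exact hE.dn.low t w (hlowM t w h hlow)
        · push Not at hlow
          have hq := hdesc t w h (-3 * β / 4) (by linarith) (by linarith)
          have hqM := hlowM _ _ hq (by simp; linarith)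
          have := hE.dn.low _ _ hqM
          simp only [sub_im] at hlow
          simp at this
          linarith
    · rintro t w s (h | h) hb hs
      · exact Or.inl (hE.dn.down t w s h hb hs)
      · by_cases hlow : -β < s - (φ w).im
        · right
          have h3 := hdesc t w h (s - (φ w).im) (by
            have := h.2.2.2
            simp only [sub_im] at this
            linarith) hlow
          simpa using h3
        · push Not at hlow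
          left
          have hq := hdesc t w h (-3 * β / 4) (by linarith) (by linarith)
          have hqM := hlowM _ _ hq (by simp; linarith)
          have h4 := hE.dn.down _ _ s hqM hb (by simp; linarith)
          simpa using h4
    · intro p hp hpB
      rcases hp with h | h
      · rw [hFM p h]; exact hE.eq p h hpB
      · rw [hFN p h]
        have hpM : p ∈ M := base_sub hB hfB hpB
        rw [heq p hpM h]
        exact hE.eq p hpM hpB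
    · rintro t w (h | h)
      · exact hE.above t w h
      · by_cases hlow : (t - φ w).im ≤ -β / 2
        · exact hE.above t w (hlowM t w h hlow)
        · push Not at hlow
          have hq := hdesc t w h (-3 * β / 4) (by linarith) (by linarith)
          have hqM := hlowM _ _ hq (by simp; linarith)
          obtain ⟨s, hs1, hs2, hs3⟩ := hE.above _ _ hqM
          refine ⟨s, hs1, ?_, ?_⟩
          · simp only [sub_im] at hlow
            simp at hs2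
            linarith
          · simpa using hs3
  have hmem : (ζ₁ + φ w₁, w₁) ∈ N := ⟨hw₁, by simpa using ⟨hζ1, hζ2, hζ3⟩⟩
  exact hExt.sub (Or.inr hmem)

end Vale.Agent.P097.H85
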