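import Vale.Agent.P097.H6.WallH
import Vale.Agent.P097.H286.C.ExtPos
import Vale.Agent.P097.H920.Inst

/-!
# P097 : positions of the global world, analytic fields of the local world

`psn_MM` : the position of the vertex between the lines `n - 1`, `n` on `MM n ∩ MM (n - 1)`;
`smp_abs` : a root of the incidence function which moves with a line of nonzero area form is simple.
-/

set_option linter.all false

open Complex Metric Filter Topology Set MeasureTheory
open scoped ComplexConjugate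

namespace Vale.Agent.P097.H85

open Vale.Agent.P097 Vale.Agent.P097.TA Vale.Agent.P097.H202 Vale.Agent.P097.SC
open Vale.Agent.P097.H929 Vale.Agent.P097.H543 Vale.Agent.P097.H6 Vale.Agent.P097.H456.C

section smp
open Vale.Agent.P097.TC

/-- **a root which moves with a line of nonzero area form is simple** -/
theorem smp_abs {Λ H : ℝ} {F q : ℂ → ℂ} (h : Cv Λ H F q) {al p th : ℂ × ℂ → ℂ} {z : ℂ × ℂ}
    (ha : DifferentiableAt ℂ al z) (hp : DifferentiableAt ℂ p z) (ht : DifferentiableAt ℂ th z)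
    (hm : th z ∈ Sb H) (h0 : ∀ᶠ y in 𝓝 z, Mi F q (al y) (p y) (th y) = 0)
    (hJ : fderiv ℂ al z (1, 0) * fderiv ℂ p z (0, 1) -
      fderiv ℂ al z (0, 1) * fderiv ℂ p z (1, 0) ≠ 0) :
    deriv (Mi F q (al z) (p z)) (th z) ≠ 0 := by
  intro hcon
  set x := th z with hx
  set a := al z with hadef
  set π := p z with hπ
  have hMx := (H920.Mi_hasDerivAt h a π hm).deriv
  rw [hcon] at hMx
  -- derivative along the direction `v`
  have key : ∀ v : ℂ × ℂ, (-(deriv F x * q x * Complex.sin (a - F x)) +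
      deriv q x * Complex.cos (a - F x)) * fderiv ℂ al z v - deriv F x * fderiv ℂ p z v = 0 := by
    intro v
    have hline : HasDerivAt (fun τ : ℂ => z + τ • v) v 0 := by
      have := ((hasDerivAt_id (0 : ℂ)).smul_const v).const_add z
      simpa using this
    have hz0 : z + (0 : ℂ) • v = z := by simp
    have d : ∀ {f : ℂ × ℂ → ℂ}, DifferentiableAt ℂ f z →
        HasDerivAt (fun τ : ℂ => f (z + τ • v)) (fderiv ℂ f z v) 0 := by
      intro f hf
      have h1 : HasFDerivAt f (fderiv ℂ f z) (z + (0 : ℂ) • v) := by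
        rw [hz0]; exact hf.hasFDerivAt
      exact h1.comp_hasDerivAt (0 : ℂ) hline
    have da := d ha
    have dp := d hp
    have dt := d ht
    have hx0 : th (z + (0 : ℂ) • v) = x := by rw [hz0]
    have c : ∀ {g : ℂ → ℂ} {g' : ℂ}, HasDerivAt g g' x →
        HasDerivAt (fun τ : ℂ => g (th (z + τ • v))) (g' * fderiv ℂ th z v) 0 := by
      intro g g' hg
      have h1 : HasDerivAt g g' (th (z + (0 : ℂ) • v)) := by rw [hx0]; exact hg
      exact h1.comp (0 : ℂ) dt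
    have cF := c (H920.Cv.F1 h hm)
    have cF1 := c (H920.Cv.F2 h hm)
    have cq := c (H920.Cv.q1 h hm)
    have cq1 := c (H920.Cv.q2 h hm)
    have hs := (da.sub cF).csin
    have hc := (da.sub cF).ccos
    have hD := (cF1.mul ((cq.mul hc).sub dp)).add (cq1.mul hs)
    have hz : (fun τ : ℂ => Mi F q (al (z + τ • v)) (p (z + τ • v)) (th (z + τ • v))) =ᶠ[𝓝 0]
        fun _ => (0 : ℂ) := by
      have h2 : Tendsto (fun τ : ℂ => z + τ • v) (𝓝 0) (𝓝 z) := by
        have := hline.continuousAt.tendsto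
        rwa [hz0] at this
      exact h2.eventually h0
    have hz' : HasDerivAt (fun τ : ℂ => Mi F q (al (z + τ • v)) (p (z + τ • v))
        (th (z + τ • v))) 0 0 := (hasDerivAt_const (0 : ℂ) (0 : ℂ)).congr_of_eventuallyEq hz
    have hD' := HasDerivAt.unique (f := fun τ : ℂ => Mi F q (al (z + τ • v)) (p (z + τ • v))
      (th (z + τ • v))) (by
        refine (hD.congr_of_eventuallyEq ?_)
        filter_upwards with τ
        rfl) hz'
    simp only [Pi.mul_apply, Pi.sub_apply, zero_smul, add_zero] at hD'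
    rw [← hx, ← hadef, ← hπ] at hD'
    linear_combination hD' + (fderiv ℂ th z v) * hMx
  have k1 := key (1, 0)
  have k2 := key (0, 1)
  set G₁ := -(deriv F x * q x * Complex.sin (a - F x)) + deriv q x * Complex.cos (a - F x) with hG₁
  have e1 : deriv F x * (fderiv ℂ al z (1, 0) * fderiv ℂ p z (0, 1) -
      fderiv ℂ al z (0, 1) * fderiv ℂ p z (1, 0)) = 0 := by
    linear_combination (fderiv ℂ al z (0, 1)) * k1 - (fderiv ℂ al z (1, 0)) * k2
  have hF : deriv F x = 0 := (mul_eq_zero.1 e1).resolve_right hJ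
  have e2 : G₁ * (fderiv ℂ al z (1, 0) * fderiv ℂ p z (0, 1) -
      fderiv ℂ al z (0, 1) * fderiv ℂ p z (1, 0)) = 0 := by
    linear_combination (fderiv ℂ p z (0, 1)) * k1 - (fderiv ℂ p z (1, 0)) * k2
  have hG : G₁ = 0 := (mul_eq_zero.1 e2).resolve_right hJ
  have hq := (H920.R2_ne h hm hF).1
  have hs := (H920.R2_root h hm hF).1 h0.self_of_nhds
  rw [hG₁, hF, zero_mul, zero_mul, neg_zero, zero_add] at hG
  have hc := (mul_eq_zero.1 hG).resolve_left hq
  have := Complex.sin_sq_add_cos_sq (a - F x)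
  rw [hs, hc] at this
  norm_num at this

end smp

variable {κ Λ b : ℝ} {H Φ : ℂ → ℂ} {r e : ℝ} {α p : ℂ → ℂ → ℂ} {J F q Q : ℂ → ℂ}
  {e₁ c₀ : ℝ} {R : ℂ → ℝ} {A P θ : ℂ × ℂ → ℂ} {n : ℤ} {ε b₀ : ℝ}

/-- **the position of the vertex between the lines `n - 1` and `n` on `MM n ∩ MM (n - 1)`** -/
theorem psn_MM (hB : CC.Base κ Λ b H Φ r e α p J F q Q e₁ c₀ R A P θ)
    (hn : (|(n : ℝ)| + 1) * ε ≤ b₀) (hε : 0 < ε) :
    ∃ θ' : ℂ × ℂ → ℂ, CC.Psn b F q (MM R A P e₁ ε b₀ n ∩ MM R A P e₁ ε b₀ (n - 1))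
      (fun z => gx b₀ (Ln A n) (Bn R e₁ ε b₀ n) z.1 z.2)
      (fun z => gx b₀ (Ln P n) (Bn R e₁ ε b₀ n) z.1 z.2)
      (fun z => gx b₀ (Ln A (n - 1)) (Bn R e₁ ε b₀ (n - 1)) z.1 z.2)
      (fun z => gx b₀ (Ln P (n - 1)) (Bn R e₁ ε b₀ (n - 1)) z.1 z.2) θ' ∧
      ∀ z ∈ Wn R e₁ ε b₀ n, θ' z = Th θ n z := by
  have hn1 : |(n : ℝ)| * ε ≤ b₀ := by nlinarith
  have hn2 : |((n - 1 : ℤ) : ℝ)| * ε ≤ b₀ := by
    refine (mul_le_mul_of_nonneg_right ?_ hε.le).trans hn
    push_cast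
    have := abs_sub (n : ℝ) 1
    rwa [abs_one] at this
  obtain ⟨x1, x2⟩ := ext_MM (n := n) (b₀ := b₀) (ε := ε) hB
  obtain ⟨x3, x4⟩ := ext_MM (n := n - 1) (b₀ := b₀) (ε := ε) hB
  have hM : Dn b₀ (MM R A P e₁ ε b₀ n ∩ MM R A P e₁ ε b₀ (n - 1)) :=
    (rh_MM hB hn1).dn.inter (rh_MM hB hn2).dn
  have hW : Dn b₀ (Wn R e₁ ε b₀ n) := (dn_Bn hB).inter (dn_Bn hB)
  have hWM : Wn R e₁ ε b₀ n ⊆ MM R A P e₁ ε b₀ n ∩ MM R A P e₁ ε b₀ (n - 1) := fun z hz =>
    ⟨Bn_sub_MM hB hn1 hz.1, Bn_sub_MM hB hn2 hz.2⟩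
  set a₁ : ℂ × ℂ → ℂ := fun z => gx b₀ (Ln A n) (Bn R e₁ ε b₀ n) z.1 z.2 with ha₁
  set p₁ : ℂ × ℂ → ℂ := fun z => gx b₀ (Ln P n) (Bn R e₁ ε b₀ n) z.1 z.2 with hp₁
  set a₂ : ℂ × ℂ → ℂ := fun z => gx b₀ (Ln A (n - 1)) (Bn R e₁ ε b₀ (n - 1)) z.1 z.2 with ha₂
  set p₂ : ℂ × ℂ → ℂ := fun z => gx b₀ (Ln P (n - 1)) (Bn R e₁ ε b₀ (n - 1)) z.1 z.2 with hp₂
  have va₁ : ∀ z ∈ Wn R e₁ ε b₀ n, a₁ z = Ln A n z.1 z.2 := fun z hz => x1.eq z (hWM hz).1.1 hz.1
  have vp₁ : ∀ z ∈ Wn R e₁ ε b₀ n, p₁ z = Ln P n z.1 z.2 := fun z hz => x2.eq z (hWM hz).1.2 hz.1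
  have va₂ : ∀ z ∈ Wn R e₁ ε b₀ n, a₂ z = Ln A (n - 1) z.1 z.2 :=
    fun z hz => x3.eq z (hWM hz).2.1 hz.2
  have vp₂ : ∀ z ∈ Wn R e₁ ε b₀ n, p₂ z = Ln P (n - 1) z.1 z.2 :=
    fun z hz => x4.eq z (hWM hz).2.2 hz.2
  refine CC.ext_pos (θ := Th θ n) hB.bs hM hW ?_ ?_ ?_ ?_ ?_ ?_ ?_ ?_
  · rintro t w ⟨h1, h2⟩
    obtain ⟨s₁, a1, a2, a3⟩ := x1.above t w h1.1
    obtain ⟨s₂, b1, b2, b3⟩ := x3.above t w h2.1
    have hre : ∀ s : ℝ, ((((t.re : ℂ) + (s : ℝ) * I).re : ℂ)) = (t.re : ℂ) := fun s => by simp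
    refine ⟨min s₁ s₂, lt_min a1 b1, (min_le_left _ _).trans a2, ?_, ?_⟩
    · have := (dn_Bn (n := n) (b₀ := b₀) (ε := ε) hB).down _ _ (min s₁ s₂) a3 (lt_min a1 b1)
        (by simp)
      rwa [hre] at this
    · have := (dn_Bn (n := n - 1) (b₀ := b₀) (ε := ε) hB).down _ _ (min s₁ s₂) b3 (lt_min a1 b1)
        (by simp)
      rwa [hre] at this
  · exact (Hol.analyticOnNhd_of_differentiableOn x1.dn.op x1.jd).mono fun z hz => hz.1.1
  · exact (Hol.analyticOnNhd_of_differentiableOn x2.dn.op x2.jd).mono fun z hz => hz.1.2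
  · exact (Hol.analyticOnNhd_of_differentiableOn x3.dn.op x3.jd).mono fun z hz => hz.2.1
  · exact (Hol.analyticOnNhd_of_differentiableOn x4.dn.op x4.jd).mono fun z hz => hz.2.2
  · refine ⟨?_, ?_, ?_, ?_, ?_⟩
    · rintro ⟨t, w⟩ hz
      have h1 := hB.pc.an _ (Wn_Pd hB hn hz)
      have h2 : AnalyticAt ℂ (fun z : ℂ × ℂ => (z.1 + ((n : ℂ) - 1 / 2) * z.2, z.2)) (t, w) :=
        (analyticAt_fst.add (analyticAt_const.mul analyticAt_snd)).prod analyticAt_snd
      exact h1.comp_of_eq h2 rfl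
    · rintro ⟨t, w⟩ hz
      exact (rel_Wn hB hn hz).1
    · rintro ⟨t, w⟩ hz
      rw [va₁ _ hz, va₂ _ hz]
      have := (rel_Wn hB hn hz).2.1
      linear_combination this
    · rintro ⟨t, w⟩ hz
      rw [va₁ _ hz, va₂ _ hz, vp₁ _ hz, vp₂ _ hz]
      obtain ⟨-, h1, h2, -⟩ := rel_Wn hB hn hz
      have h3 : (Ln A n t w - Ln A (n - 1) t w) / 2 = F (Th θ n (t, w)) - Ln A (n - 1) t w := by
        linear_combination (1 / 2 : ℂ) * h1
      show Ln P n t w + Ln P (n - 1) t w = _ * cos ((Ln A n t w - Ln A (n - 1) t w) / 2)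
      rw [h3]
      linear_combination h2
    · rintro ⟨t, w⟩ hz
      rw [va₁ _ hz, va₂ _ hz, vp₁ _ hz, vp₂ _ hz]
      obtain ⟨-, h1, h2, h4⟩ := rel_Wn hB hn hz
      have h3 : (Ln A n t w - Ln A (n - 1) t w) / 2 = F (Th θ n (t, w)) - Ln A (n - 1) t w := by
        linear_combination (1 / 2 : ℂ) * h1
      have h5 : Ln A (n - 1) t w - F (Th θ n (t, w)) =
        -(F (Th θ n (t, w)) - Ln A (n - 1) t w) := by ring
      rw [h5, Complex.cos_neg, Complex.sin_neg] at h4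
      show _ * (Ln P n t w - Ln P (n - 1) t w) =
        _ * sin ((Ln A n t w - Ln A (n - 1) t w) / 2)
      rw [h3]
      linear_combination 2 * h4 + deriv F (Th θ n (t, w)) * h2
  · -- the position is not constant on slices
    rintro ⟨t, w⟩ hz hcon
    have hP := Wn_Pd hB hn hz
    set U : Set ℂ := {τ | (τ + ((n : ℂ) - 1 / 2) * w, w) ∈ Pd R e₁} with hU
    have hUe : U = {τ | |(τ + ((n : ℂ) - 1 / 2) * w).im| < R w - |w.im| / 2} := by
      ext τ
      constructor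
      · intro h
        have h1 : |(τ + ((n : ℂ) - 1 / 2) * w).im| + |w.im| / 2 < R w := h.1
        show |(τ + ((n : ℂ) - 1 / 2) * w).im| < R w - |w.im| / 2
        linarith
      · intro h
        have h1 : |(τ + ((n : ℂ) - 1 / 2) * w).im| < R w - |w.im| / 2 := h
        refine ⟨?_, hP.2⟩
        show |(τ + ((n : ℂ) - 1 / 2) * w).im| + |w.im| / 2 < R w
        linarith
    have hUc : Convex ℝ U := by
      rw [hUe]
      have h1 : Convex ℝ {x : ℝ | |x| < R w - |w.im| / 2} := by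
        have : {x : ℝ | |x| < R w - |w.im| / 2} = Ioo (-(R w - |w.im| / 2)) (R w - |w.im| / 2) := by
          ext x
          exact ⟨fun h => abs_lt.1 h, fun h => abs_lt.2 h⟩
        rw [this]
        exact convex_Ioo _ _
      intro x hx y hy a b' ha hb' hab
      have h2 := h1 hx hy ha hb' hab
      show |(a • x + b' • y + ((n : ℂ) - 1 / 2) * w).im| < R w - |w.im| / 2
      have h3 : (a • x + b' • y + ((n : ℂ) - 1 / 2) * w).im =
          a • (x + ((n : ℂ) - 1 / 2) * w).im + b' • (y + ((n : ℂ) - 1 / 2) * w).im := by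
        have hb'' : b' = 1 - a := by linarith
        subst hb''
        simp only [add_im, smul_eq_mul, Complex.smul_im]
        ring
      rw [h3]
      exact h2
    have hUo : IsOpen U := by
      rw [hUe]
      exact isOpen_lt (by fun_prop) continuous_const
    have hfa : AnalyticOnNhd ℂ (fun τ => Th θ n (τ, w)) U := by
      intro τ hτ
      have h1 := hB.pc.an _ hτ
      have h2 : AnalyticAt ℂ (fun τ : ℂ => (τ + ((n : ℂ) - 1 / 2) * w, w)) τ := by
        fun_prop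
      exact h1.comp_of_eq h2 rfl
    have htU : t ∈ U := hP
    have ht1 : t + 1 ∈ U := by
      rw [hUe] at htU ⊢
      show |(t + 1 + ((n : ℂ) - 1 / 2) * w).im| < R w - |w.im| / 2
      have : (t + 1 + ((n : ℂ) - 1 / 2) * w).im = (t + ((n : ℂ) - 1 / 2) * w).im := by simp
      rw [this]
      exact htU
    have h1 : (fun τ => Th θ n (τ, w)) =ᶠ[𝓝 t] fun _ => Th θ n (t, w) := hcon
    have h2 := hfa.eqOn_of_preconnected_of_eventuallyEq analyticOnNhd_const hUc.isPreconnected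
      htU h1 ht1
    simp only at h2
    have h3 := hB.pc.per _ _ hP
    have h4 : Th θ n (t + 1, w) = θ (t + ((n : ℂ) - 1 / 2) * w + 1, w) := by
      show θ (t + 1 + ((n : ℂ) - 1 / 2) * w, w) = _
      congr 2
      ring
    rw [h4, h3] at h2
    have h5 : θ (t + ((n : ℂ) - 1 / 2) * w, w) = Th θ n (t, w) := rfl
    rw [h5] at h2
    have : (1 : ℂ) = 0 := by linear_combination h2
    exact one_ne_zero this
  · -- the lines are not opposite on slices
    rintro ⟨t, w⟩ hz hcon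
    have hP := Wn_Pd hB hn hz
    set U : Set ℂ := {τ | (τ, w) ∈ Pd R e₁} with hU
    have hUe : U = {τ | |τ.im| < R w - |w.im| / 2} := by
      ext τ
      constructor
      · intro h
        have h1 : |τ.im| + |w.im| / 2 < R w := h.1
        show |τ.im| < R w - |w.im| / 2
        linarith
      · intro h
        have h1 : |τ.im| < R w - |w.im| / 2 := h
        refine ⟨?_, hP.2⟩
        show |τ.im| + |w.im| / 2 < R w
        linarith
    have hUc : Convex ℝ U := by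
      rw [hUe]
      have h1 : Convex ℝ {x : ℝ | |x| < R w - |w.im| / 2} := by
        have : {x : ℝ | |x| < R w - |w.im| / 2} = Ioo (-(R w - |w.im| / 2)) (R w - |w.im| / 2) := by
          ext x
          exact ⟨fun h => abs_lt.1 h, fun h => abs_lt.2 h⟩
        rw [this]
        exact convex_Ioo _ _
      intro x hx y hy a b' ha hb' hab
      have h2 := h1 hx hy ha hb' hab
      show |(a • x + b' • y).im| < R w - |w.im| / 2
      have h3 : (a • x + b' • y).im = a • x.im + b' • y.im := by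
        simp only [add_im, smul_eq_mul, Complex.smul_im]
      rw [h3]
      exact h2
    have hUD : ∀ τ ∈ U, (τ + w / 2, w) ∈ Dm R e₁ ∧ (τ - w / 2, w) ∈ Dm R e₁ := by
      intro τ hτ
      have h1 : |τ.im| + |w.im| / 2 < R w := hτ.1
      have h2 : |(w / 2).im| = |w.im| / 2 := by
        have : (w / 2).im = w.im / 2 := by simp
        rw [this, abs_div, abs_two]
      refine ⟨⟨?_, hP.2⟩, ⟨?_, hP.2⟩⟩
      · show |(τ + w / 2).im| < R w
        rw [add_im]
        have := abs_add_le τ.im (w / 2).im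
        linarith
      · show |(τ - w / 2).im| < R w
        rw [sub_im]
        have := abs_sub τ.im (w / 2).im
        linarith
    set g : ℂ → ℂ := fun τ => cos ((A (τ + w / 2, w) - A (τ - w / 2, w)) / 2) with hg
    have hga : AnalyticOnNhd ℂ g U := by
      intro τ hτ
      have h1 := (hB.rd.aA _ (hUD τ hτ).1).comp_of_eq (f := fun τ : ℂ => (τ + w / 2, w))
        (x := τ) (by fun_prop) rfl
      have h2 := (hB.rd.aA _ (hUD τ hτ).2).comp_of_eq (f := fun τ : ℂ => (τ - w / 2, w))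
        (x := τ) (by fun_prop) rfl
      exact CC.an_cos' ((h1.sub h2).div_const)
    have h0 : (0 : ℂ) ∈ U := by
      have h1 : |(t + ((n : ℂ) - 1 / 2) * w).im| + |w.im| / 2 < R w := hP.1
      refine ⟨?_, hP.2⟩
      show |(0 : ℂ).im| + |w.im| / 2 < R w
      rw [zero_im, abs_zero]
      have := abs_nonneg (t + ((n : ℂ) - 1 / 2) * w).im
      linarith
    have hev : g =ᶠ[𝓝 (t + ((n : ℂ) - 1 / 2) * w)] fun _ => 0 := by
      have h1 : Tendsto (fun τ : ℂ => τ - ((n : ℂ) - 1 / 2) * w)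
          (𝓝 (t + ((n : ℂ) - 1 / 2) * w)) (𝓝 t) := by
        have : ContinuousAt (fun τ : ℂ => τ - ((n : ℂ) - 1 / 2) * w)
          (t + ((n : ℂ) - 1 / 2) * w) := by fun_prop
        have h2 := this.tendsto
        rwa [add_sub_cancel_right] at h2
      have hpre : ∀ᶠ s in 𝓝 t, (s, w) ∈ Wn R e₁ ε b₀ n := by
        have : IsOpen {s : ℂ | (s, w) ∈ Wn R e₁ ε b₀ n} := hW.op.preimage (by fun_prop)
        exact this.mem_nhds hz
      filter_upwards [h1.eventually hcon, h1.eventually hpre] with τ h2 h3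
      rw [va₁ _ h3, va₂ _ h3] at h2
      have e1 : τ - ((n : ℂ) - 1 / 2) * w + (n : ℂ) * w = τ + w / 2 := by ring
      have e2 : τ - ((n : ℂ) - 1 / 2) * w + ((n - 1 : ℤ) : ℂ) * w = τ - w / 2 := by
        push_cast; ring
      simp only [Ln, e1, e2] at h2
      exact h2
    have h1 := hga.eqOn_of_preconnected_of_eventuallyEq analyticOnNhd_const hUc.isPreconnected
      (show t + ((n : ℂ) - 1 / 2) * w ∈ U from hP) hev h0
    have h2 := hB.pc.cs w h0
    apply h2
    simpa [hg] using h1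

end Vale.Agent.P097.H85
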