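import Vale.Agent.P097.H85.Top

/-! # P097 / ALPHA, row R1, part 5: the first drop -/

set_option linter.all false

open scoped ComplexConjugate Topology
open Filter Metric Set Complex

namespace Vale.Agent.P097.H85

open Vale.Agent.P097.TA Vale.Agent.P097.H543

/-- the abstract dichotomy -/
theorem dich {P Q : ℕ → ℝ → ℝ → Prop} {c₀ rmax : ℝ} (hc₀ : 0 < c₀) (hrm : 0 < rmax) (J : ℕ)
    (hPQ : ∀ i ≤ J, ∀ y r, 0 < r → r ≤ rmax → Q i y r →
      ∀ y' r', |y' - y| ≤ r / 2 → 0 < r' → 4 * r' ≤ c₀ * r → P i y' r') {y₀ r₀ : ℝ}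
    (hr₀ : 0 < r₀) (hP0 : ∀ y r, |y - y₀| < r₀ → 0 < r → r < r₀ → P 0 y r) :
    ∀ j ≤ J, (∃ y₁ r₁ : ℝ, 0 < r₁ ∧ |y₁ - y₀| + r₁ ≤ r₀ ∧
        ∀ y r, |y - y₁| < r₁ → 0 < r → r < r₁ → P j y r) ∨
      ∃ i < j, ∃ y₁ r₁ : ℝ, 0 < r₁ ∧ |y₁ - y₀| + r₁ ≤ r₀ ∧
        ∀ y r, |y - y₁| < r₁ → 0 < r → r < r₁ → P i y r ∧ ¬ Q (i + 1) y r := by
  intro j
  induction j with
  | zero =>
    intro _
    left
    exact ⟨y₀, r₀, hr₀, by simp, hP0⟩
  | succ j ih =>
    intro hj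
    rcases ih (by omega) with ⟨y₁, r₁, h1, h2, h3⟩ | ⟨i, hi, h⟩
    · by_cases hQ : ∃ y r, |y - y₁| < r₁ ∧ 0 < r ∧ r < min r₁ rmax ∧ Q (j + 1) y r
      · obtain ⟨y, r, a1, a2, a3, a4⟩ := hQ
        left
        have a5 : r ≤ rmax := (a3.trans_le (min_le_right _ _)).le
        have a6 : r < r₁ := a3.trans_le (min_le_left _ _)
        set q := min (min (r / 2) (c₀ * r / 4)) ((r₁ - |y - y₁|)) with hq
        have q1 : q ≤ r / 2 := (min_le_left _ _).trans (min_le_left _ _)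
        have q2 : q ≤ c₀ * r / 4 := (min_le_left _ _).trans (min_le_right _ _)
        have q3 : q ≤ r₁ - |y - y₁| := min_le_right _ _
        have q0 : 0 < q := by
          apply lt_min (lt_min (by positivity) (by positivity))
          linarith
        refine ⟨y, q, q0, ?_, ?_⟩
        · have := abs_sub_le y y₁ y₀
          linarith
        · intro y' r' b1 b2 b3
          exact hPQ (j + 1) hj y r a2 a5 a4 y' r' (by linarith) b2 (by linarith)
      · push Not at hQ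
        right
        refine ⟨j, by omega, y₁, min r₁ rmax, lt_min h1 hrm, ?_, ?_⟩
        · have := min_le_left r₁ rmax
          linarith
        · intro y r b1 b2 b3
          have b4 := b1.trans_le (min_le_left r₁ rmax)
          have b5 := b3.trans_le (min_le_left r₁ rmax)
          exact ⟨h3 y r b4 b2 b5, hQ y r b4 b2 b3⟩
    · right
      exact ⟨i, by omega, h⟩

/-- **The first drop.**  The lines `0, …, J`; line `0` is regular in windows of slope `s₀`, line `J`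
has the first height `R₀` over `u`; there is an index `i < J` and an interval on which, at all small
scales, line `i` is regular in the windows of slope `s₀ - 8 δ i` and line `i + 1` is not regular in
any window of the smaller slope `s₀ - 8 δ i - 4 δ`. -/
theorem drop {b m : ℝ} {Ψ : ℂ → ℂ} {u ρ : ℝ} {P₀ : ℂ} {c k c₀ ε : ℝ} (J : ℕ)
    (M : ℕ → Set (ℂ × ℂ)) (hM : ∀ i ≤ J, RH b (M i))
    (hC : ∀ i ≤ J, Cmp (M i) b m Ψ u ρ P₀ c k c₀ ε) {s₀ δ Λ S K : ℝ} (hρ : 0 < ρ)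
    (hbm : b < m) (hmP : m ≤ P₀.im) (hδ : 0 < δ) (hc₀ : 0 < c₀) (hc1 : c₀ ≤ 1 / 2) (hε : 0 ≤ ε)
    (hε1 : 8 * ε ≤ δ * c₀) (hS : |s₀| + |k| + 8 * δ * J + δ ≤ S) (hSc : S * c₀ ≤ δ)
    (hΛ : 1 + |c| + |k| + 2 * ε + S + 4 * δ ≤ Λ) (hΛc : c₀ * Λ ≤ 1 / 2)
    (hKs : K + 2 * δ ≤ s₀ - 8 * δ * J)
    (hcK : |(s₀ - 8 * δ * J) + 3 * K| * c₀ ≤ ((s₀ - 8 * δ * J) - K) / 16)
    (hΛK : |K| ≤ S)
    {y₀ r₀ : ℝ} (hr₀ : 0 < r₀)
    (hP0 : ∀ y r, |y - y₀| < r₀ → 0 < r → r < r₀ → Win b u P₀.im c y r s₀ c₀ Λ ⊆ M 0)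
    (hcone : ∀ t w : ℂ, |w.re - u| < ρ → |w.im| < ρ → b < t.im →
      t.im < P₀.im + c * (w.re - u) - K * |w.im| - ε * ‖w - u‖ → (t, w) ∈ M J)
    (hwall : ∀ y e : ℝ, |y - y₀| < r₀ → 0 < e →
      ((y : ℂ) + ((P₀.im + e : ℝ) : ℂ) * I, (u : ℂ)) ∉ M J) :
    ∃ i < J, ∃ y₁ r₁ : ℝ, 0 < r₁ ∧ |y₁ - y₀| + r₁ ≤ r₀ ∧
      ∀ y r, |y - y₁| < r₁ → 0 < r → r < r₁ →
        Win b u P₀.im c y r (s₀ - 8 * δ * i) c₀ Λ ⊆ M i ∧
        ¬ Win b u P₀.im c y r (s₀ - 8 * δ * (i + 1 : ℕ) + 4 * δ) c₀ Λ ⊆ M (i + 1) := by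
  have hJ0 : (0 : ℝ) ≤ J := Nat.cast_nonneg J
  have hS0 : 0 < S := by
    have := abs_nonneg s₀
    have := abs_nonneg k
    have : 0 ≤ 8 * δ * J := by positivity
    linarith
  set rmax : ℝ := min (ρ / 2) ((m - b) / (16 * (S + 2 * δ))) with hrmax
  have hrm : 0 < rmax := by
    apply lt_min (by positivity)
    apply div_pos (by linarith) (by positivity)
  have hrm1 : rmax < ρ := (min_le_left _ _).trans_lt (by linarith)
  have hrm2 : (S + 2 * δ) * rmax ≤ (m - b) / 16 := by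
    have h1 : rmax ≤ (m - b) / (16 * (S + 2 * δ)) := min_le_right _ _
    have h2 := mul_le_mul_of_nonneg_left h1 (by positivity : 0 ≤ S + 2 * δ)
    have h3 : (S + 2 * δ) * ((m - b) / (16 * (S + 2 * δ))) = (m - b) / 16 := by
      field_simp
    linarith
  have hPQ : ∀ i ≤ J, ∀ y r, 0 < r → r ≤ rmax →
      Win b u P₀.im c y r (s₀ - 8 * δ * i + 4 * δ) c₀ Λ ⊆ M i →
      ∀ y' r', |y' - y| ≤ r / 2 → 0 < r' → 4 * r' ≤ c₀ * r →
      Win b u P₀.im c y' r' (s₀ - 8 * δ * i) c₀ Λ ⊆ M i := by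
    intro i hi y r hr hrr hw y' r' hy hr' hrr'
    have hiJ : (i : ℝ) ≤ J := by exact_mod_cast hi
    have hi0 : (0 : ℝ) ≤ i := Nat.cast_nonneg i
    set s₁ : ℝ := s₀ - 8 * δ * i + δ - k with hs₁
    have hs₁S : |s₁| ≤ S := by
      have e1 : |s₀ - 8 * δ * i + δ - k| ≤ |s₀ - 8 * δ * i + δ| + |k| := abs_sub _ _
      have e2 : |s₀ - 8 * δ * i + δ| ≤ |s₀ - 8 * δ * i| + |δ| := abs_add_le _ _
      have e3 : |s₀ - 8 * δ * i| ≤ |s₀| + |8 * δ * i| := abs_sub _ _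
      have e4 : |8 * δ * (i : ℝ)| ≤ 8 * δ * J := by
        rw [abs_of_nonneg (by positivity)]
        exact mul_le_mul_of_nonneg_left hiJ (by positivity)
      rw [abs_of_pos hδ] at e2
      rw [hs₁]
      linarith
    have e1 : k + s₁ + 3 * δ = s₀ - 8 * δ * i + 4 * δ := by rw [hs₁]; ring
    have e2 : k + s₁ - δ = s₀ - 8 * δ * i := by rw [hs₁]; ring
    rw [← e1] at hw
    rw [← e2]
    have hs1c : |s₁| * c₀ ≤ δ := (mul_le_mul_of_nonneg_right hs₁S hc₀.le).trans hSc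
    have hr1 : (|s₁| + 2 * δ) * r ≤ (m - b) / 16 := by
      have a1 : (|s₁| + 2 * δ) * r ≤ (S + 2 * δ) * r :=
        mul_le_mul_of_nonneg_right (by linarith) hr.le
      have a2 : (S + 2 * δ) * r ≤ (S + 2 * δ) * rmax :=
        mul_le_mul_of_nonneg_left hrr (by positivity)
      linarith
    exact prop_window (hM i hi) (hC i hi) hbm hδ hc₀ hc1 hε hε1 hs1c (by linarith) hΛc hr
      (by linarith) hr1 hw hy hr' hrr'
  rcases dich (P := fun i y r => Win b u P₀.im c y r (s₀ - 8 * δ * i) c₀ Λ ⊆ M i)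
    (Q := fun i y r => Win b u P₀.im c y r (s₀ - 8 * δ * i + 4 * δ) c₀ Λ ⊆ M i) hc₀ hrm J hPQ hr₀
    (by
      intro y r h1 h2 h3
      simpa using hP0 y r h1 h2 h3) J (le_refl J) with h | h
  · exfalso
    obtain ⟨y₁, r₁, h1, h2, h3⟩ := h
    set s := s₀ - 8 * δ * J with hs
    set A : ℝ := (s + K) / 2 with hA
    set σ : ℝ := (s - K) / 2 with hσ
    have hσ0 : 0 < σ := by rw [hσ]; linarith
    have hσδ : δ ≤ σ := by rw [hσ]; linarith
    have hAs : A + σ = s := by rw [hA, hσ]; ring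
    have hAK : A - σ = K := by rw [hA, hσ]; ring
    have hcr : 0 < |c| + 2 * |A| + 2 * σ := by positivity
    set r : ℝ := min (min (r₁ / 2) (ρ / 2)) ((P₀.im - b) / (16 * (|c| + 2 * |A| + 2 * σ))) with hr
    have hr0 : 0 < r := by
      apply lt_min (lt_min (by positivity) (by positivity))
      apply div_pos (by linarith) (by positivity)
    have hrr₁ : r < r₁ := ((min_le_left _ _).trans (min_le_left _ _)).trans_lt (by linarith)
    have hrρ : r < ρ := ((min_le_left _ _).trans (min_le_right _ _)).trans_lt (by linarith)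
    have hr3 : (|c| + 2 * |A| + 2 * σ) * r < (P₀.im - b) / 8 := by
      have a1 : r ≤ (P₀.im - b) / (16 * (|c| + 2 * |A| + 2 * σ)) := min_le_right _ _
      have a2 := mul_le_mul_of_nonneg_left a1 hcr.le
      have a3 : (|c| + 2 * |A| + 2 * σ) * ((P₀.im - b) / (16 * (|c| + 2 * |A| + 2 * σ))) =
          (P₀.im - b) / 16 := by field_simp
      linarith
    have hwin := h3 y₁ r (by simpa using h1) hr0 hrr₁
    rw [← hAs] at hwin
    have hs_abs : |s| ≤ S := by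
      have e3 : |s₀ - 8 * δ * J| ≤ |s₀| + |8 * δ * J| := abs_sub _ _
      rw [abs_of_nonneg (by positivity : (0 : ℝ) ≤ 8 * δ * J)] at e3
      have := abs_nonneg k
      rw [hs]; linarith
    have hΛ2 : 1 + |c| + |A| + σ ≤ Λ := by
      have a1 : |A| + σ ≤ S := by
        have b1 : A ≤ |A| := le_abs_self A
        have hs2 := abs_le.1 hs_abs
        have hK2 := abs_le.1 hΛK
        rcases abs_cases A with ⟨h, _⟩ | ⟨h, _⟩
        · rw [h, hAs]; linarith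
        · rw [h]
          have : -A + σ = -K := by rw [hA, hσ]; ring
          rw [this]; linarith
      have := abs_nonneg k
      linarith
    have hcA : |2 * A - σ| * c₀ ≤ σ / 16 := by
      have e1 : 2 * A - σ = (s + 3 * K) / 2 := by rw [hA, hσ]; ring
      rw [e1, abs_div, abs_two, hσ]
      linarith
    have := top_step (hM J (le_refl J)) (by linarith : b < P₀.im) hσ0 hc₀ hc1 hcA hε
      (by nlinarith) hΛ2 hr0 hrρ hr3 (by rw [hAK]; exact hcone) hwin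
    exact hwall y₁ (σ * r / 16) (by linarith) (by positivity) this
  · exact h

end Vale.Agent.P097.H85
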