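import Vale.Agent.P097.H929.Thin2
import Vale.Agent.P097.H85.Drop

/-!
# P097 : the first drop, uniformly on a compact set of labels

`glob_abs` : the drop at every label of a compact set of positive measure gives one index, one
interval and one compact set of positive measure with uniform constants.
-/

set_option linter.all false

open scoped ComplexConjugate Topology
open Filter Metric Set Complex MeasureTheory

namespace Vale.Agent.P097.H85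

open Vale.Agent.P097.H929

theorem Cmp.mono_rho {M : Set (ℂ × ℂ)} {b m : ℝ} {Ψ : ℂ → ℂ} {u ρ ρ' : ℝ} {P₀ : ℂ}
    {c k c₀ ε : ℝ} (h : Cmp M b m Ψ u ρ P₀ c k c₀ ε) (hρ : ρ' ≤ ρ) :
    Cmp M b m Ψ u ρ' P₀ c k c₀ ε :=
  ⟨h.hol.mono fun w hw => ⟨hw.1.trans_le hρ, hw.2.1, hw.2.2.trans_le hρ⟩,
    fun w h1 h2 h3 => h.bdd w (h1.trans_le hρ) h2 (h3.trans_le hρ),
    fun t w h1 h2 h3 h4 h5 => h.base t w (h1.trans_le hρ) h2 (h3.trans_le hρ) h4 h5,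
    fun w h1 h2 h3 h4 => h.nt w (h1.trans_le hρ) h2 (h3.trans_le hρ) h4⟩

theorem fin_one {Q : ℕ → ℝ → Prop} (J : ℕ)
    (h : ∀ i ≤ J, ∃ ρ > 0, ∀ ρ' : ℝ, 0 < ρ' → ρ' ≤ ρ → Q i ρ') :
    ∃ ρ > 0, ∀ i ≤ J, ∀ ρ' : ℝ, 0 < ρ' → ρ' ≤ ρ → Q i ρ' := by
  induction J with
  | zero =>
    obtain ⟨ρ, hρ, h1⟩ := h 0 le_rfl
    refine ⟨ρ, hρ, fun i hi => ?_⟩
    obtain rfl : i = 0 := by omega
    exact h1
  | succ J ih =>
    obtain ⟨ρ₁, hρ₁, h1⟩ := ih fun i hi => h i (by omega)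
    obtain ⟨ρ₂, hρ₂, h2⟩ := h (J + 1) le_rfl
    refine ⟨min ρ₁ ρ₂, lt_min hρ₁ hρ₂, fun i hi ρ' h3 h4 => ?_⟩
    rcases Nat.lt_or_ge i (J + 1) with h5 | h5
    · exact h1 i (by omega) ρ' h3 (h4.trans (min_le_left _ _))
    · obtain rfl : i = J + 1 := by omega
      exact h2 ρ' h3 (h4.trans (min_le_right _ _))

theorem fin_two {Q : ℕ → ℝ → ℝ → Prop} (J : ℕ)
    (h : ∀ i ≤ J, ∃ cb > 0, ∃ Λb : ℝ, ∀ c₀ : ℝ, 0 < c₀ → c₀ ≤ cb → ∀ Λ : ℝ, Λb ≤ Λ → Q i c₀ Λ) :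
    ∃ cb > 0, ∃ Λb : ℝ, ∀ i ≤ J, ∀ c₀ : ℝ, 0 < c₀ → c₀ ≤ cb → ∀ Λ : ℝ, Λb ≤ Λ → Q i c₀ Λ := by
  induction J with
  | zero =>
    obtain ⟨cb, hcb, Λb, h1⟩ := h 0 le_rfl
    refine ⟨cb, hcb, Λb, fun i hi => ?_⟩
    obtain rfl : i = 0 := by omega
    exact h1
  | succ J ih =>
    obtain ⟨c₁, hc₁, Λ₁, h1⟩ := ih fun i hi => h i (by omega)
    obtain ⟨c₂, hc₂, Λ₂, h2⟩ := h (J + 1) le_rfl
    refine ⟨min c₁ c₂, lt_min hc₁ hc₂, max Λ₁ Λ₂, fun i hi c₀ h3 h4 Λ h5 => ?_⟩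
    rcases Nat.lt_or_ge i (J + 1) with h6 | h6
    · exact h1 i (by omega) c₀ h3 (h4.trans (min_le_left _ _)) Λ ((le_max_left _ _).trans h5)
    · obtain rfl : i = J + 1 := by omega
      exact h2 c₀ h3 (h4.trans (min_le_right _ _)) Λ ((le_max_right _ _).trans h5)

/-- continuity of the data of the labels in the form used by `win_label` -/
theorem near_label {A : Set ℝ} {P : ℝ → ℂ} {c : ℝ → ℝ} (hR : ContinuousOn (fun u => (P u).im) A)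
    (hc : ContinuousOn c A) {T : ℝ} (hT0 : 0 ≤ T) {u : ℝ} (hu : u ∈ A) {r e : ℝ} (hr : 0 < r)
    (he : 0 < e) : ∃ d > 0, d ≤ r / 2 ∧ ∀ u' ∈ A, |u' - u| < d →
      |(P u').im - (P u).im| + |c u' - c u| * r + T * |u' - u| ≤ e := by
  obtain ⟨d₁, hd₁, h1⟩ := Metric.continuousOn_iff.1 hR u hu (e / 3) (by positivity)
  obtain ⟨d₂, hd₂, h2⟩ := Metric.continuousOn_iff.1 hc u hu (e / 3 / r) (by positivity)
  refine ⟨min (min d₁ d₂) (min (r / 2) (e / 3 / (T + 1))), by positivity,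
    (min_le_right _ _).trans (min_le_left _ _), fun u' hu' h => ?_⟩
  have e1 := h1 u' hu' (by
    rw [Real.dist_eq]; exact h.trans_le ((min_le_left _ _).trans (min_le_left _ _)))
  have e2 := h2 u' hu' (by
    rw [Real.dist_eq]; exact h.trans_le ((min_le_left _ _).trans (min_le_right _ _)))
  rw [Real.dist_eq] at e1 e2
  have e3 : |c u' - c u| * r ≤ e / 3 := by
    rw [lt_div_iff₀ hr] at e2
    exact e2.le
  have e4 : |u' - u| ≤ e / 3 / (T + 1) :=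
    (h.trans_le ((min_le_right _ _).trans (min_le_right _ _))).le
  rw [le_div_iff₀ (by positivity)] at e4
  have e5 : |u' - u| * (T + 1) = T * |u' - u| + |u' - u| := by ring
  have e6 := abs_nonneg (u' - u)
  linarith

/-- **the first drop, uniformly on a compact set of labels** -/
theorem glob_abs {b m T : ℝ} {Ψ : ℂ → ℂ} {A : Set ℝ} {P : ℝ → ℂ} {c k : ℝ → ℝ} (J : ℕ)
    (M : ℕ → Set (ℂ × ℂ)) (hM : ∀ i ≤ J, RH b (M i))
    (hU : ∀ i ≤ J, CmpU (M i) b m Ψ A P c k) (hbm : b < m) (hmP : ∀ u ∈ A, m ≤ (P u).im)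
    (hA : IsCompact A) (hA0 : volume A ≠ 0) (hR : ContinuousOn (fun u => (P u).im) A)
    (hc : ContinuousOn c A) (hT : ∀ u ∈ A, |c u| ≤ T ∧ |k u| ≤ T) (hJ : 2 * T + 3 ≤ J)
    (hstart : ∀ c₂ > 0, ∀ Λ₂ : ℝ, ∃ r₀ > 0, ∀ u ∈ A, ∀ y r : ℝ, 0 < r → r < r₀ →
      Win b u (P u).im (c u) y r (J - T - 1) c₂ Λ₂ ⊆ M 0)
    (hcone : ∀ ε > 0, ∃ ρ > 0, ∀ u ∈ A, ∀ t w : ℂ, |w.re - u| < ρ → |w.im| < ρ → b < t.im →
      t.im < (P u).im + c u * (w.re - u) - T * |w.im| - ε * ‖w - u‖ → (t, w) ∈ M J)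
    (hwall : ∀ u ∈ A, ∀ y e : ℝ, 0 < e →
      ((y : ℂ) + (((P u).im + e : ℝ) : ℂ) * I, (u : ℂ)) ∉ M J) :
    ∃ i < J, ∃ S ⊆ A, IsCompact S ∧ volume S ≠ 0 ∧ ∃ y₁ y₂ s s' : ℝ, y₁ < y₂ ∧ s' < s ∧
      (∃ c' Λ' r' : ℝ, 0 < c' ∧ 0 < r' ∧ ∀ u ∈ S, ∀ y : ℝ, y₁ < y → y < y₂ → ∀ r : ℝ, 0 < r →
        r < r' → ¬ Win b u (P u).im (c u) y r s' c' Λ' ⊆ M (i + 1)) ∧
      ∀ u ∈ S, ∀ y : ℝ, y₁ < y → y < y₂ → ∀ δ > 0, RegB (M i) b S P c y u (s - δ) := by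
  have hne : A.Nonempty := by
    by_contra h
    rw [not_nonempty_iff_eq_empty] at h
    exact hA0 (by rw [h]; exact measure_empty)
  have hT0 : 0 ≤ T := by
    obtain ⟨u, hu⟩ := hne
    exact (abs_nonneg _).trans (hT u hu).1
  have hJ0 : (0 : ℝ) < J := by linarith
  set δ : ℝ := 1 / (8 * J) with hδ
  have hδ0 : 0 < δ := by positivity
  have hδJ : 8 * δ * J = 1 := by rw [hδ]; field_simp
  have hδ1 : δ ≤ 1 / 24 := by nlinarith
  set s₀ : ℝ := J - T - 1 with hs₀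
  set S₀ : ℝ := |s₀| + T + 2 with hS₀
  have hs₀0 : 0 ≤ |s₀| := abs_nonneg _
  have hS₀0 : 0 < S₀ := by positivity
  obtain ⟨cb, hcb, Λb, hsp⟩ := fin_two (Q := fun i c₀ Λ => ∃ ρ₀ > 0, ∀ s : ℝ, |s| ≤ |s₀| + 2 →
      ∀ u ∈ A, ∀ y r : ℝ, 0 < r → r < ρ₀ → Win b u (P u).im (c u) y r s c₀ Λ ⊆ M i →
        RegB (M i) b A P c y u (s - δ / 2)) J
    (fun i hi => spread (hM i hi) (hU i hi) hbm hR hc (by positivity : 0 < δ / 2)
      (by positivity : 0 ≤ |s₀| + 2))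
  set Λ : ℝ := max Λb (3 + 2 * T + S₀ + 4 * δ) with hΛ
  have hΛ1 : Λb ≤ Λ := le_max_left _ _
  have hΛ2 : 3 + 2 * T + S₀ + 4 * δ ≤ Λ := le_max_right _ _
  have hΛ0 : 0 < Λ := by linarith
  set c₀ : ℝ := min (min (1 / 2) (cb / 2)) (min (δ / S₀)
    (min (1 / (2 * Λ)) (1 / (16 * (|s₀| + 1 + 3 * T))))) with hc₀
  have hc₀0 : 0 < c₀ := by positivity
  have hc₀1 : c₀ ≤ 1 / 2 := (min_le_left _ _).trans (min_le_left _ _)
  have hc₀2 : c₀ ≤ cb / 2 := (min_le_left _ _).trans (min_le_right _ _)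
  have hc₀3 : c₀ ≤ δ / S₀ := (min_le_right _ _).trans (min_le_left _ _)
  have hc₀4 : c₀ ≤ 1 / (2 * Λ) :=
    (min_le_right _ _).trans ((min_le_right _ _).trans (min_le_left _ _))
  have hc₀5 : c₀ ≤ 1 / (16 * (|s₀| + 1 + 3 * T)) :=
    (min_le_right _ _).trans ((min_le_right _ _).trans (min_le_right _ _))
  rw [le_div_iff₀ (by positivity)] at hc₀3 hc₀4 hc₀5
  set ε : ℝ := δ * c₀ / 8 with hε
  have hε0 : 0 < ε := by positivity
  have hε1 : ε ≤ 1 := by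
    have : δ * c₀ ≤ 1 := mul_le_one₀ (by linarith) hc₀0.le (by linarith)
    rw [hε]; linarith
  obtain ⟨ρ₁, hρ₁, hC⟩ := fin_one (Q := fun i ρ => ∀ u ∈ A,
      Cmp (M i) b m Ψ u ρ (P u) (c u) (k u) c₀ ε) J (fun i hi => by
    obtain ⟨ρ, hρ, h⟩ := (hU i hi).cmp c₀ hc₀0 ε hε0
    exact ⟨ρ, hρ, fun ρ' h1 h2 u hu => (h u hu).mono_rho h2⟩)
  obtain ⟨ρ₂, hρ₂, hcn⟩ := hcone ε hε0
  obtain ⟨r₀, hr₀, hst⟩ := hstart c₀ hc₀0 Λ
  -- the drop at every label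
  have hdrop : ∀ u ∈ A, ∃ i < J, ∃ y₁ r₁ : ℝ, 0 < r₁ ∧ ∀ y r, |y - y₁| < r₁ → 0 < r → r < r₁ →
      Win b u (P u).im (c u) y r (s₀ - 8 * δ * i) c₀ Λ ⊆ M i ∧
      ¬ Win b u (P u).im (c u) y r (s₀ - 8 * δ * (i + 1 : ℕ) + 4 * δ) c₀ Λ ⊆ M (i + 1) := by
    intro u hu
    have hcu := (hT u hu).1
    have hku := (hT u hu).2
    have hρ : 0 < min ρ₁ ρ₂ := lt_min hρ₁ hρ₂
    obtain ⟨i, hi, y₁, r₁, h1, -, h2⟩ := drop (b := b) (m := m) (Ψ := Ψ) (u := u)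
      (ρ := min ρ₁ ρ₂) (P₀ := P u) (c := c u) (k := k u) (c₀ := c₀) (ε := ε) J M hM
      (fun i hi => hC i hi _ hρ (min_le_left _ _) u hu) (s₀ := s₀) (δ := δ) (Λ := Λ) (S := S₀)
      (K := T) hρ hbm (hmP u hu) hδ0 hc₀0 hc₀1 hε0.le (by rw [hε]; linarith)
      (by rw [hδJ, hS₀]; linarith) (by rw [mul_comm]; exact hc₀3) (by linarith)
      (by
        have : c₀ * (2 * Λ) = 2 * (c₀ * Λ) := by ring
        linarith)
      (by rw [hδJ, hs₀]; linarith)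
      (by
        rw [hδJ]
        have e1 : |s₀ - 1 + 3 * T| ≤ |s₀| + 1 + 3 * T := by
          have a1 := abs_add_le (s₀ - 1) (3 * T)
          have a2 := abs_sub s₀ 1
          rw [abs_of_nonneg (by positivity : (0 : ℝ) ≤ 3 * T)] at a1
          rw [abs_one] at a2
          linarith
        have e2 : |s₀ - 1 + 3 * T| * c₀ ≤ (|s₀| + 1 + 3 * T) * c₀ :=
          mul_le_mul_of_nonneg_right e1 hc₀0.le
        have e3 : c₀ * (16 * (|s₀| + 1 + 3 * T)) = 16 * ((|s₀| + 1 + 3 * T) * c₀) := by ring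
        have e4 : 1 ≤ s₀ - 1 - T := by rw [hs₀]; linarith
        linarith)
      (by rw [abs_of_nonneg hT0]; linarith) (y₀ := 0) (r₀ := r₀) hr₀
      (fun y r _ h2 h3 => hst u hu y r h2 h3)
      (fun t w h1 h2 h3 h4 => hcn u hu t w (h1.trans_le (min_le_right _ _))
        (h2.trans_le (min_le_right _ _)) h3 h4)
      (fun y e _ he => hwall u hu y e he)
    exact ⟨i, hi, y₁, r₁, h1, h2⟩
  -- one index, one rational interval, one scale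
  set X : ℕ × ℚ × ℚ × ℕ → Set ℝ := fun z => {u | u ∈ A ∧ z.1 < J ∧ z.2.1 < z.2.2.1 ∧
    ∀ y r : ℝ, (z.2.1 : ℝ) < y → y < (z.2.2.1 : ℝ) → 0 < r → r < 1 / ((z.2.2.2 : ℝ) + 1) →
      Win b u (P u).im (c u) y r (s₀ - 8 * δ * z.1) c₀ Λ ⊆ M z.1 ∧
      ¬ Win b u (P u).im (c u) y r (s₀ - 8 * δ * (z.1 + 1 : ℕ) + 4 * δ) c₀ Λ ⊆ M (z.1 + 1)}
    with hX
  have hcov : A ⊆ ⋃ z, X z := by
    intro u hu
    obtain ⟨i, hi, y₁, r₁, hr₁, h1⟩ := hdrop u hu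
    obtain ⟨p, hp1, hp2⟩ := exists_rat_btwn (show y₁ - r₁ < y₁ by linarith)
    obtain ⟨q, hq1, hq2⟩ := exists_rat_btwn (show y₁ < y₁ + r₁ by linarith)
    obtain ⟨N, hN⟩ := exists_nat_one_div_lt hr₁
    refine mem_iUnion.2 ⟨(i, p, q, N), hu, hi, ?_, fun y r a1 a2 a3 a4 => ?_⟩
    · have : (p : ℝ) < q := hp2.trans hq1
      exact_mod_cast this
    · refine h1 y r ?_ a3 (a4.trans hN)
      rw [abs_lt]
      simp only at a1 a2
      constructor <;> linarith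
  obtain ⟨z, hz⟩ : ∃ z, volume (X z) ≠ 0 := by
    by_contra hcon
    push Not at hcon
    exact hA0 (measure_mono_null hcov (measure_iUnion_null hcon))
  obtain ⟨i, p, q, N⟩ := z
  have hXne : (X (i, p, q, N)).Nonempty := by
    by_contra h
    rw [not_nonempty_iff_eq_empty] at h
    exact hz (by rw [h]; exact measure_empty)
  obtain ⟨x₀, hx₀⟩ := hXne
  have hiJ : i < J := hx₀.2.1
  have hpq : (p : ℝ) < q := by exact_mod_cast hx₀.2.2.1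
  have hXA : X (i, p, q, N) ⊆ A := fun u hu => hu.1
  have hclA : closure (X (i, p, q, N)) ⊆ A := closure_minimal hXA hA.isClosed
  have hi0 : (0 : ℝ) ≤ i := Nat.cast_nonneg i
  have hiJ' : (i : ℝ) ≤ J := by exact_mod_cast hiJ.le
  have hδi : 8 * δ * i ≤ 1 := by
    rw [← hδJ]
    exact mul_le_mul_of_nonneg_left hiJ' (by positivity)
  have hδi0 : 0 ≤ 8 * δ * i := by positivity
  refine ⟨i, hiJ, closure (X (i, p, q, N)), hclA, hA.of_isClosed_subset isClosed_closure hclA,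
    fun h => hz (measure_mono_null subset_closure h), p, q, s₀ - 8 * δ * i - δ,
    s₀ - 8 * δ * (i + 1 : ℕ) + 4 * δ + δ / 2, hpq, ?_, ?_, ?_⟩
  · push_cast
    linarith
  · refine ⟨c₀ / 2, Λ, 1 / ((N : ℝ) + 1), by positivity, by positivity, ?_⟩
    intro u hu y hy1 hy2 r hr hrN hcon
    have huA := hclA hu
    obtain ⟨d, hd, hdr, hnear⟩ := near_label hR hc hT0 huA hr
      (by positivity : 0 < δ / 2 * (c₀ / 2 * r))
    obtain ⟨u', hu', huu'⟩ := Metric.mem_closure_iff.1 hu d hd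
    rw [dist_comm, Real.dist_eq] at huu'
    have h1 := hnear u' (hXA hu') huu'
    have h2 : |c u| * |u' - u| ≤ T * |u' - u| :=
      mul_le_mul_of_nonneg_right (hT u huA).1 (abs_nonneg _)
    have h3 := win_label (b := b) (u := u) (u' := u') (R₀ := (P u).im) (R₁ := (P u').im)
      (c := c u) (c' := c u') (y := y) (y' := y) (r := r)
      (s := s₀ - 8 * δ * (i + 1 : ℕ) + 4 * δ + δ / 2) (δ := δ / 2) (c₀ := c₀ / 2) (Λ := Λ) hr
      (by positivity) (by positivity) (by linarith) (by simp; positivity) (by linarith)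
    have h4 := (hu'.2.2.2 y (r / 2) hy1 hy2 (by positivity) (by
      simp only
      linarith)).2
    apply h4
    refine Subset.trans ?_ (h3.trans hcon)
    have e1 : s₀ - 8 * δ * ((i + 1 : ℕ) : ℝ) + 4 * δ + δ / 2 - δ / 2 =
      s₀ - 8 * δ * ((i + 1 : ℕ) : ℝ) + 4 * δ := by ring
    have e2 : 2 * (c₀ / 2) = c₀ := by ring
    rw [e1, e2]
  · intro u hu y hy1 hy2 δ' hδ'
    have huA := hclA hu
    obtain ⟨ρ₀, hρ₀, hsp'⟩ := hsp i hiJ.le (2 * c₀) (by positivity) (by linarith) Λ hΛ1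
    set r : ℝ := min (1 / ((N : ℝ) + 1)) ρ₀ / 2 with hr
    have hr0 : 0 < r := by positivity
    have hr1 : r < 1 / ((N : ℝ) + 1) := by
      have h1 := min_le_left (1 / ((N : ℝ) + 1)) ρ₀
      have h2 : 0 < 1 / ((N : ℝ) + 1) := by positivity
      rw [hr]; linarith
    have hr2 : r / 2 < ρ₀ := by
      have h1 := min_le_right (1 / ((N : ℝ) + 1)) ρ₀
      rw [hr]; linarith
    obtain ⟨d, hd, hdr, hnear⟩ := near_label hR hc hT0 huA hr0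
      (by positivity : 0 < δ / 2 * (c₀ * r))
    obtain ⟨u', hu', huu'⟩ := Metric.mem_closure_iff.1 hu d hd
    rw [dist_comm, Real.dist_eq] at huu'
    have h1 := hnear u' (hXA hu') huu'
    have h2 : |c u'| * |u - u'| ≤ T * |u' - u| := by
      rw [abs_sub_comm u u']
      exact mul_le_mul_of_nonneg_right (hT u' (hXA hu')).1 (abs_nonneg _)
    have h3 := win_label (b := b) (u := u') (u' := u) (R₀ := (P u').im) (R₁ := (P u).im)
      (c := c u') (c' := c u) (y := y) (y' := y) (r := r)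
      (s := s₀ - 8 * δ * i) (δ := δ / 2) (c₀ := c₀) (Λ := Λ) hr0
      (by positivity) hc₀0 (by rw [abs_sub_comm]; linarith) (by simp; positivity) (by
        rw [abs_sub_comm (P u).im, abs_sub_comm (c u) (c u')]
        linarith)
    have h4 := (hu'.2.2.2 y r hy1 hy2 hr0 hr1).1
    have h5 := hsp' (s₀ - 8 * δ * i - δ / 2) (by
      have a1 := abs_sub s₀ (8 * δ * i + δ / 2)
      have a2 : s₀ - 8 * δ * i - δ / 2 = s₀ - (8 * δ * i + δ / 2) := by ring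
      rw [← a2, abs_of_nonneg (by positivity : 0 ≤ 8 * δ * i + δ / 2)] at a1
      linarith) u huA y (r / 2) (by positivity) hr2 (h3.trans h4)
    have h6 : RegB (M i) b (closure (X (i, p, q, N))) P c y u
        (s₀ - 8 * δ * i - δ / 2 - δ / 2) := by
      obtain ⟨d', hd', h7⟩ := h5
      refine ⟨d', hd', fun c₂ hc₂ Λ₂ => ?_⟩
      obtain ⟨r₃, hr₃, h8⟩ := h7 c₂ hc₂ Λ₂
      exact ⟨r₃, hr₃, fun u'' hu'' => h8 u'' (hclA hu'')⟩
    refine h6.mono ?_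
    linarith

end Vale.Agent.P097.H85
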