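import Vale.Agent.P097.H6.TopR0
import Vale.Agent.P097.H710.GU.Unif
import Vale.Agent.P097.H85.GlobA

/-!
# P097 : the global world of case [c] exists over every base

`glob : H6.Glob` : label package (710) + the first drop at every label (`glob_abs`) applied to the
lines `-N, …, 0` of the base.
-/

set_option linter.all false

open Complex Metric Filter Topology Set MeasureTheory
open scoped ComplexConjugate

namespace Vale.Agent.P097.H85

open Vale.Agent.P097 Vale.Agent.P097.TA Vale.Agent.P097.H202 Vale.Agent.P097.SC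
open Vale.Agent.P097.H929 Vale.Agent.P097.H543 Vale.Agent.P097.H6

/-- **row GLOB** -/
theorem glob : H6.Glob := by
  intro κ Λ b H Φ r e α p J F q Q e₁ c₀ R A P θ he hc hB
  obtain ⟨m, T, ρ₀, Ψ, S, Pt, c, k, hm, hρ₀, hSc, hS0, hu, hcR, hcc, hck, hΨ, hnt, hcone⟩ :=
    H710.GU.unif_sup he hc hB.sb hB.low
  set b₀ : ℝ := m / 2 with hb₀
  have hb₀0 : 0 < b₀ := by positivity
  have hbm : b₀ < m := by rw [hb₀]; linarith
  obtain ⟨N, hN⟩ := exists_nat_ge (2 * T + 3)
  have hN0 : (0 : ℝ) ≤ N := Nat.cast_nonneg N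
  set ε : ℝ := b₀ / (N + 1) with hε
  have hε0 : 0 < ε := by positivity
  have hNε : ((N : ℝ) + 1) * ε = b₀ := by rw [hε]; field_simp
  set M : ℕ → Set (ℂ × ℂ) := fun i => MM R A P e₁ ε b₀ ((i : ℤ) - N) with hM
  have habs : ∀ i : ℕ, i ≤ N → |(((i : ℤ) - N : ℤ) : ℝ)| ≤ N := by
    intro i hi
    have h1 : (i : ℝ) ≤ N := by exact_mod_cast hi
    have h2 : (0 : ℝ) ≤ i := Nat.cast_nonneg i
    push_cast
    rw [abs_le]
    constructor <;> linarith
  have hnε : ∀ i : ℕ, i ≤ N → |(((i : ℤ) - N : ℤ) : ℝ)| * ε ≤ b₀ := by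
    intro i hi
    have h1 := mul_le_mul_of_nonneg_right (habs i hi) hε0.le
    nlinarith
  have hRH : ∀ i ≤ N, RH b₀ (M i) := fun i hi => rh_MM hB (hnε i hi)
  have hw_lt : ∀ u ∈ S, ∀ w : ℂ, ‖w - u‖ < ρ₀ → ‖w‖ < e₁ := by
    intro u huS w h
    have h1 := norm_add_le (w - u) (u : ℂ)
    rw [sub_add_cancel, norm_real, Real.norm_eq_abs] at h1
    have := (hu u huS).1
    linarith
  have hnorm : ∀ (u : ℝ) (w : ℂ), ‖w - u‖ ≤ |w.re - u| + |w.im| := by
    intro u w
    simpa using Complex.norm_le_abs_re_add_abs_im (w - u)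
  -- the comparison data
  have hU : ∀ i ≤ N, CmpU (M i) b₀ m Ψ S Pt c k := by
    intro i hi
    refine ⟨⟨T, fun u huS => (hu u huS).2.2.2.2⟩, fun c₁ hc₁ ε₁ hε₁ => ?_⟩
    obtain ⟨ρ, hρ, h1⟩ := hnt c₁ hc₁ ε₁ hε₁
    refine ⟨min (min ρ ρ₀) ε, by positivity, fun u huS => ?_⟩
    have g1 : min (min ρ ρ₀) ε ≤ ρ := (min_le_left _ _).trans (min_le_left _ _)
    have g2 : min (min ρ ρ₀) ε ≤ ρ₀ := (min_le_left _ _).trans (min_le_right _ _)
    have g3 : min (min ρ ρ₀) ε ≤ ε := min_le_right _ _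
    obtain ⟨h2, h3⟩ := hΨ u huS
    refine ⟨h2.mono fun w hw => ⟨hw.1.trans_le g2, hw.2.1, hw.2.2.trans_le g2⟩,
      fun w a1 a2 a3 => (h3 w (a1.trans_le g2) a2 (a3.trans_le g2)).2.1,
      fun t w a1 a2 a3 a4 a5 => ?_,
      fun w a1 a2 a3 a4 => h1 u huS w (a1.trans_le g1) a2 (a3.trans_le g1) a4⟩
    obtain ⟨h4, h5, h6⟩ := h3 w (a1.trans_le g2) a2 (a3.trans_le g2)
    refine Bn_sub_MM hB (hnε i hi) ⟨a4, ?_, h4, ?_⟩
    · show t.im + (((i : ℤ) - N : ℤ) : ℝ) * w.im < R w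
      have h7 : (((i : ℤ) - N : ℤ) : ℝ) ≤ 0 := by
        have : (i : ℝ) ≤ N := by exact_mod_cast hi
        push_cast
        linarith
      have h8 := mul_nonpos_of_nonpos_of_nonneg h7 a2.le
      linarith
    · show |w.im| < ε
      rw [abs_of_pos a2]
      exact a3.trans_le g3
  have hMN : M N = MM R A P e₁ ε b₀ 0 := by
    simp only [hM, sub_self]
  obtain ⟨i, hiN, S', hS'S, hS'c, hS'0, y₁, y₂, s, s', hy, hss, hdrop, hwin⟩ :=
    glob_abs (b := b₀) (m := m) (T := T) (Ψ := Ψ) (A := S) (P := Pt) (c := c) (k := k) N M hRH hU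
      hbm (fun u huS => by rw [(hu u huS).2.2.1]; exact (hu u huS).2.2.2.1.le) hSc hS0 hcR hcc
      (fun u huS => (hu u huS).2.2.2.2) hN
      (by
        -- the start
        intro c₂ hc₂ Λ₂
        obtain ⟨δ, hδ, h1⟩ := hcone (c₂ / 4) (by positivity)
        refine ⟨min (min (δ / 2) (ρ₀ / 2)) ε, by positivity, fun u huS y r hr hr0 => ?_⟩
        have g1 : r < δ / 2 := hr0.trans_le ((min_le_left _ _).trans (min_le_left _ _))
        have g2 : r < ρ₀ / 2 := hr0.trans_le ((min_le_left _ _).trans (min_le_right _ _))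
        have g3 : r < ε := hr0.trans_le (min_le_right _ _)
        rintro ⟨t, w⟩ ⟨a1, a2, a3, a4, a5, a6⟩
        simp only at a1 a2 a3 a4 a5 a6
        have hw0 : 0 < w.im := lt_of_lt_of_le (by positivity) a2
        have h2 := hnorm u w
        rw [abs_of_pos hw0] at h2
        have h3 := h1 u huS (w - u) (by linarith)
        rw [add_sub_cancel] at h3
        have e1 : (w - (u : ℂ)).re = w.re - u := by simp
        have e2 : (w - (u : ℂ)).im = w.im := by simp
        rw [e1, e2, abs_of_pos hw0] at h3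
        refine Bn_sub_MM hB (hnε 0 (Nat.zero_le _)) ⟨a5, ?_, hw_lt u huS w (by linarith), ?_⟩
        · show t.im + (((0 : ℕ) : ℤ) - N : ℤ) * w.im < R w
          push_cast
          have hk := (abs_le.1 (hu u huS).2.2.2.2.2).1
          have h4 : -T * w.im ≤ k u * w.im := mul_le_mul_of_nonneg_right hk hw0.le
          have h5 : c₂ / 4 * ‖w - (u : ℂ)‖ ≤ c₂ / 4 * (2 * r) :=
            mul_le_mul_of_nonneg_left (by linarith) (by positivity)
          rw [(hu u huS).2.2.1] at a6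
          have h6 : ((N : ℝ) - T - 1) * w.im = N * w.im - T * w.im - w.im := by ring
          have h7 : c₂ / 4 * (2 * r) = c₂ * r / 2 := by ring
          linarith
        · show |w.im| < ε
          rw [abs_of_pos hw0]; linarith)
      (by
        -- the cone
        intro ε₁ hε₁
        obtain ⟨δ, hδ, h1⟩ := hcone ε₁ hε₁
        refine ⟨min (min (δ / 2) (ρ₀ / 2)) ε, by positivity, fun u huS t w a1 a2 a3 a4 => ?_⟩
        have g1 : min (min (δ / 2) (ρ₀ / 2)) ε ≤ δ / 2 :=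
          (min_le_left _ _).trans (min_le_left _ _)
        have g2 : min (min (δ / 2) (ρ₀ / 2)) ε ≤ ρ₀ / 2 :=
          (min_le_left _ _).trans (min_le_right _ _)
        have g3 : min (min (δ / 2) (ρ₀ / 2)) ε ≤ ε := min_le_right _ _
        have h2 := hnorm u w
        have h3 := h1 u huS (w - u) (by linarith)
        rw [add_sub_cancel] at h3
        have e1 : (w - (u : ℂ)).re = w.re - u := by simp
        have e2 : (w - (u : ℂ)).im = w.im := by simp
        rw [e1, e2] at h3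
        refine Bn_sub_MM hB (hnε N le_rfl) ⟨a3, ?_, hw_lt u huS w (by linarith), a2.trans_le g3⟩
        show t.im + (((N : ℕ) : ℤ) - N : ℤ) * w.im < R w
        push_cast
        have hk := (abs_le.1 (hu u huS).2.2.2.2.2).1
        have h4 : -T * |w.im| ≤ k u * |w.im| := mul_le_mul_of_nonneg_right hk (abs_nonneg _)
        rw [(hu u huS).2.2.1] at a4
        rw [sub_self, zero_mul, add_zero]
        linarith)
      (by
        -- the wall
        intro u huS y e' he'
        rw [hMN, (hu u huS).2.2.1]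
        refine wall_MM hB hε0 (hu u huS).2.1 ?_ ?_ y e' he'.le
        · have := (hu u huS).1
          linarith
        · have := (hu u huS).2.2.2.1
          linarith)
  have hiN' : (i : ℝ) + 1 ≤ N := by exact_mod_cast hiN
  have hi0 : (0 : ℝ) ≤ i := Nat.cast_nonneg i
  have hMi : M i = MM R A P e₁ ε b₀ ((i : ℤ) + 1 - N - 1) := by
    show MM R A P e₁ ε b₀ ((i : ℤ) - N) = _
    congr 1
    ring
  have hMi1 : M (i + 1) = MM R A P e₁ ε b₀ ((i : ℤ) + 1 - N) := by
    show MM R A P e₁ ε b₀ (((i + 1 : ℕ) : ℤ) - N) = _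
    push_cast
    rfl
  have hsubU : ∀ {M' : Set (ℂ × ℂ)}, CmpU M' b₀ m Ψ S Pt c k → CmpU M' b₀ m Ψ S' Pt c k := by
    intro M' h
    obtain ⟨T', hT'⟩ := h.bd
    refine ⟨⟨T', fun u huS => hT' u (hS'S huS)⟩, fun c₁ hc₁ ε₁ hε₁ => ?_⟩
    obtain ⟨ρ, hρ, h3⟩ := h.cmp c₁ hc₁ ε₁ hε₁
    exact ⟨ρ, hρ, fun u huS => h3 u (hS'S huS)⟩
  refine ⟨(i : ℤ) + 1 - N, ε, b₀, m, Ψ, S', Pt, c, k, y₁, y₂, s, s', ?_⟩
  refine
    { n0 := by
        have : (i : ℤ) + 1 ≤ N := by exact_mod_cast hiN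
        omega
      ε0 := hε0
      b00 := hb₀0
      nε := ?_
      bm := hbm
      Sc := hS'c
      S0 := hS'0
      Se := fun u huS => by
        have := (hu u (hS'S huS)).1
        linarith
      irr := fun u huS => (hu u (hS'S huS)).2.1
      Pi := fun u huS => (hu u (hS'S huS)).2.2.1
      bR := fun u huS => hbm.trans (hu u (hS'S huS)).2.2.2.1
      cR := hcR.mono hS'S
      cc := hcc.mono hS'S
      uj := ?_
      uk := ?_
      cone := ⟨T, fun η hη => ?_⟩
      hy := hy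
      ss := hss
      drop := ?_
      win := ?_ }
  · have h1 : |(((i : ℤ) + 1 - N : ℤ) : ℝ)| + 1 ≤ (N : ℝ) + 1 := by
      have : |(((i : ℤ) + 1 - N : ℤ) : ℝ)| ≤ N := by
        push_cast
        rw [abs_le]
        constructor <;> linarith
      linarith
    calc (|(((i : ℤ) + 1 - N : ℤ) : ℝ)| + 1) * ε ≤ ((N : ℝ) + 1) * ε :=
          mul_le_mul_of_nonneg_right h1 hε0.le
      _ = b₀ := hNε
  · rw [← hMi1]
    exact hsubU (hU (i + 1) hiN)
  · rw [← hMi]
    exact hsubU (hU i hiN.le)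
  · obtain ⟨δ, hδ, h1⟩ := hcone η hη
    refine ⟨δ, hδ, fun u huS v hv => le_trans ?_ (h1 u (hS'S huS) v hv)⟩
    have hk := (abs_le.1 (hu u (hS'S huS)).2.2.2.2.2).1
    have h4 : -T * |v.im| ≤ k u * |v.im| := mul_le_mul_of_nonneg_right hk (abs_nonneg _)
    linarith
  · rw [← hMi1]
    exact hdrop
  · rw [← hMi]
    exact hwin

end Vale.Agent.P097.H85
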