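import Vale.Agent.P097.H85.Mx

/-! # P097 / ALPHA, row R1, part 3: the propagation lemma -/

set_option linter.all false

open scoped ComplexConjugate Topology
open Filter Metric Set Complex

namespace Vale.Agent.P097.H85

open Vale.Agent.P097.TA Vale.Agent.P097.H543

/-- the window over the base point `u`, at the abscissa `y`, scale `r`, with slope `s` -/
def Win (b u R₀ c y r s c₀ Λ : ℝ) : Set (ℂ × ℂ) :=
  {p | |p.2.re - u| ≤ r ∧ c₀ * r ≤ p.2.im ∧ p.2.im ≤ r ∧ |p.1.re - y| ≤ Λ * r ∧ b < p.1.im ∧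
    p.1.im ≤ R₀ + c * (p.2.re - u) + s * p.2.im}

/-- comparison function `Ψ` of the upper side, with its non-tangential expansion at `u` -/
structure Cmp (M : Set (ℂ × ℂ)) (b m : ℝ) (Ψ : ℂ → ℂ) (u ρ : ℝ) (P₀ : ℂ) (c k c₀ ε : ℝ) :
    Prop where
  hol : DifferentiableOn ℂ Ψ {w | |w.re - u| < ρ ∧ 0 < w.im ∧ w.im < ρ}
  bdd : ∀ w : ℂ, |w.re - u| < ρ → 0 < w.im → w.im < ρ → m ≤ (Ψ w).im
  base : ∀ t w : ℂ, |w.re - u| < ρ → 0 < w.im → w.im < ρ → b < t.im → t.im < (Ψ w).im → (t, w) ∈ M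
  nt : ∀ w : ℂ, |w.re - u| < ρ → 0 < w.im → w.im < ρ → c₀ * |w.re - u| ≤ w.im →
    ‖Ψ w - P₀ - (I * c + k) * (w - u)‖ ≤ ε * ‖w - u‖

theorem norm_le_two {w : ℂ} {u r : ℝ} (h1 : |w.re - u| ≤ r) (h2 : |w.im| ≤ r) :
    ‖w - u‖ ≤ 2 * r := by
  have h := Complex.norm_le_abs_re_add_abs_im (w - u)
  simp only [sub_re, ofReal_re, sub_im, ofReal_im, sub_zero] at h
  linarith

/-- real form of the expansion -/
theorem Cmp.re_im {M : Set (ℂ × ℂ)} {b m : ℝ} {Ψ : ℂ → ℂ} {u ρ : ℝ} {P₀ : ℂ} {c k c₀ ε : ℝ}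
    (h : Cmp M b m Ψ u ρ P₀ c k c₀ ε) (hε : 0 ≤ ε) {w : ℂ} {r : ℝ} (h1 : |w.re - u| < ρ)
    (h2 : 0 < w.im) (h3 : w.im < ρ) (h4 : c₀ * |w.re - u| ≤ w.im) (h5 : |w.re - u| ≤ r)
    (h6 : w.im ≤ r) :
    |(Ψ w).re - P₀.re| ≤ (|c| + |k| + 2 * ε) * r ∧
      |(Ψ w).im - P₀.im - c * (w.re - u) - k * w.im| ≤ 2 * ε * r := by
  have hn := h.nt w h1 h2 h3 h4
  have hn2 : ‖w - u‖ ≤ 2 * r := norm_le_two h5 (by rwa [abs_of_pos h2])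
  have hn3 : ε * ‖w - u‖ ≤ 2 * ε * r := by nlinarith
  have e1 := (Complex.abs_re_le_norm (Ψ w - P₀ - (I * c + k) * (w - u))).trans (hn.trans hn3)
  have e2 := (Complex.abs_im_le_norm (Ψ w - P₀ - (I * c + k) * (w - u))).trans (hn.trans hn3)
  simp only [sub_re, mul_re, add_re, I_re, ofReal_re, zero_mul, I_im, ofReal_im, mul_zero,
    sub_self, zero_add, sub_im, add_im, mul_im, one_mul, add_zero, sub_zero] at e1 e2
  constructor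
  · have a1 : |k * (w.re - u)| ≤ |k| * r := by
      rw [abs_mul]; exact mul_le_mul_of_nonneg_left h5 (abs_nonneg _)
    have a2 : |c * w.im| ≤ |c| * r := by
      rw [abs_mul]
      apply mul_le_mul_of_nonneg_left _ (abs_nonneg _)
      rwa [abs_of_pos h2]
    have a3 : (Ψ w).re - P₀.re = ((Ψ w).re - P₀.re - (k * (w.re - u) - c * w.im)) +
      (k * (w.re - u) - c * w.im) := by ring
    rw [a3]
    refine (abs_add_le _ _).trans ?_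
    have a4 := abs_sub (k * (w.re - u)) (c * w.im)
    linarith
  · have a3 : (Ψ w).im - P₀.im - c * (w.re - u) - k * w.im =
      (Ψ w).im - P₀.im - (k * w.im + c * (w.re - u)) := by ring
    rw [a3]
    exact e2

/-- the discs -/
noncomputable def phi (Ψ : ℂ → ℂ) (u s₁ κ e₀ : ℝ) (w : ℂ) : ℂ :=
  Ψ w + s₁ * (w - u) - I * κ * (w - u) ^ 2 - I * e₀

theorem phi_im (Ψ : ℂ → ℂ) (u s₁ κ e₀ : ℝ) (w : ℂ) : (phi Ψ u s₁ κ e₀ w).im =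
    (Ψ w).im + s₁ * w.im - κ * ((w.re - u) ^ 2 - w.im ^ 2) - e₀ := by
  unfold phi
  simp only [sub_im, add_im, mul_im, mul_re, I_re, I_im, ofReal_re, ofReal_im, sub_re, pow_two]
  ring

theorem phi_re (Ψ : ℂ → ℂ) (u s₁ κ e₀ : ℝ) (w : ℂ) : (phi Ψ u s₁ κ e₀ w).re =
    (Ψ w).re + s₁ * (w.re - u) + 2 * κ * ((w.re - u) * w.im) := by
  unfold phi
  simp only [sub_im, add_re, mul_im, mul_re, I_re, I_im, ofReal_re, ofReal_im, sub_re, pow_two]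
  ring

theorem phi_diff {Ψ : ℂ → ℂ} {U : Set ℂ} (h : DifferentiableOn ℂ Ψ U) (u s₁ κ e₀ : ℝ) :
    DifferentiableOn ℂ (phi Ψ u s₁ κ e₀) U := by
  unfold phi
  have h2 : DifferentiableOn ℂ (fun w : ℂ => (s₁ : ℂ) * (w - u)) U := by fun_prop
  have h3 : DifferentiableOn ℂ (fun w : ℂ => I * κ * (w - u) ^ 2) U := by fun_prop
  exact ((h.add h2).sub h3).sub (differentiableOn_const _)

theorem mem_bd {u r y₀ y₁ : ℝ} {w : ℂ} (h : w ∈ Rc (u - r) (u + r) y₀ y₁)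
    (h' : w ∉ Ro (u - r) (u + r) y₀ y₁) : |w.re - u| = r ∨ w.im = y₀ ∨ w.im = y₁ := by
  by_contra hcon
  push Not at hcon
  obtain ⟨h1, h2, h3⟩ := hcon
  have hle : |w.re - u| ≤ r := abs_le.2 ⟨by linarith [h.1.1], by linarith [h.1.2]⟩
  have hlt := abs_lt.1 (lt_of_le_of_ne hle h1)
  exact h' ⟨⟨by linarith [hlt.1], by linarith [hlt.2]⟩, lt_of_le_of_ne h.2.1 (Ne.symm h2),
    lt_of_le_of_ne h.2.2 h3⟩

/-- real part on the discs -/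
theorem phi_re_bound {M : Set (ℂ × ℂ)} {b m : ℝ} {Ψ : ℂ → ℂ} {u ρ : ℝ} {P₀ : ℂ} {c k c₀ ε : ℝ}
    (hC : Cmp M b m Ψ u ρ P₀ c k c₀ ε) (hε : 0 ≤ ε) {s₁ κ e₀ r : ℝ} {z : ℂ} (hκ : 0 < κ)
    (a0 : |z.re - u| < ρ) (a1 : |z.re - u| ≤ r) (a2 : 0 < z.im) (a3 : z.im ≤ r) (a4 : z.im < ρ)
    (a5 : c₀ * |z.re - u| ≤ z.im) :
    |(phi Ψ u s₁ κ e₀ z).re - P₀.re| ≤ (|c| + |k| + 2 * ε) * r + |s₁| * r + 2 * (κ * r) * r := by
  obtain ⟨n1, n2⟩ := hC.re_im hε (r := r) a0 a2 a4 a5 a1 a3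
  have hr : 0 ≤ r := (abs_nonneg _).trans a1
  have e1 : |s₁ * (z.re - u)| ≤ |s₁| * r := by
    rw [abs_mul]; exact mul_le_mul_of_nonneg_left a1 (abs_nonneg _)
  have e2 : |2 * κ * ((z.re - u) * z.im)| ≤ 2 * (κ * r) * r := by
    have e3 : |(z.re - u) * z.im| ≤ r * r := by
      rw [abs_mul, abs_of_pos a2]
      exact mul_le_mul a1 a3 a2.le hr
    rw [abs_mul, abs_of_pos (by positivity : 0 < 2 * κ)]
    have e4 := mul_le_mul_of_nonneg_left e3 (by positivity : 0 ≤ 2 * κ)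
    have e5 : 2 * κ * (r * r) = 2 * (κ * r) * r := by ring
    rwa [e5] at e4
  rw [phi_re]
  have e6 : (Ψ z).re + s₁ * (z.re - u) + 2 * κ * ((z.re - u) * z.im) - P₀.re =
      ((Ψ z).re - P₀.re) + (s₁ * (z.re - u) + 2 * κ * ((z.re - u) * z.im)) := by ring
  rw [e6]
  have e7 := abs_add_le ((Ψ z).re - P₀.re)
    (s₁ * (z.re - u) + 2 * κ * ((z.re - u) * z.im))
  have e9 := abs_add_le (s₁ * (z.re - u)) (2 * κ * ((z.re - u) * z.im))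
  linarith

/-- the discs enter the window in the non-tangential part -/
theorem mem_win {M : Set (ℂ × ℂ)} {b m : ℝ} {Ψ : ℂ → ℂ} {u ρ : ℝ} {P₀ : ℂ} {c k c₀ ε : ℝ}
    (hC : Cmp M b m Ψ u ρ P₀ c k c₀ ε) {s₁ δ Λ κ e₀ : ℝ} (hδ : 0 < δ) (hc₀ : 0 < c₀)
    (hc1 : c₀ ≤ 1 / 2) (hε : 0 ≤ ε) (hε1 : 8 * ε ≤ δ * c₀)
    (hΛ : 1 + |c| + |k| + 2 * ε + |s₁| + 4 * δ ≤ Λ) {r : ℝ} (hr : 0 < r) (hrρ : r < ρ)
    (hκr : κ * r = 2 * δ) (hκ : 0 < κ) (he0 : 0 ≤ e₀) {y : ℝ} {ζ z : ℂ}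
    (hζ1 : |ζ.re - (y - P₀.re)| < r) (hζ3 : ζ.im < 0) (a1 : |z.re - u| ≤ r) (a2 : 0 < z.im)
    (a3 : z.im ≤ r) (hz1 : c₀ * r ≤ z.im)
    (hz2 : κ * z.im ^ 2 - κ * (z.re - u) ^ 2 ≤ 2 * δ * z.im)
    (hb : b < (ζ + phi Ψ u s₁ κ e₀ z).im) :
    (ζ + phi Ψ u s₁ κ e₀ z, z) ∈ Win b u P₀.im c y r (k + s₁ + 3 * δ) c₀ Λ := by
  have a5 : c₀ * |z.re - u| ≤ z.im := (mul_le_mul_of_nonneg_left a1 hc₀.le).trans hz1
  obtain ⟨n1, n2⟩ := hC.re_im hε (r := r) (by linarith) a2 (by linarith) a5 a1 a3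
  refine ⟨a1, hz1, a3, ?_, hb, ?_⟩
  · have e0 := phi_re_bound hC hε (s₁ := s₁) (e₀ := e₀) hκ (by linarith) a1 a2 a3 (by linarith) a5
    rw [hκr] at e0
    have e6 : (ζ + phi Ψ u s₁ κ e₀ z).re - y = (ζ.re - (y - P₀.re)) +
        ((phi Ψ u s₁ κ e₀ z).re - P₀.re) := by
      rw [add_re]; ring
    show |(ζ + phi Ψ u s₁ κ e₀ z).re - y| ≤ Λ * r
    rw [e6]
    have e7 := abs_add_le (ζ.re - (y - P₀.re)) ((phi Ψ u s₁ κ e₀ z).re - P₀.re)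
    have e10 : (1 + |c| + |k| + 2 * ε + |s₁| + 4 * δ) * r ≤ Λ * r :=
      mul_le_mul_of_nonneg_right hΛ hr.le
    have e11 : (1 + |c| + |k| + 2 * ε + |s₁| + 4 * δ) * r =
      r + (|c| + |k| + 2 * ε) * r + |s₁| * r + 4 * δ * r := by ring
    linarith
  · have e1 := (abs_le.1 n2).2
    have e2 : 2 * ε * r ≤ δ * z.im := by
      have e3 : 8 * ε * r ≤ δ * c₀ * r := mul_le_mul_of_nonneg_right hε1 hr.le
      have e4 : δ * (c₀ * r) ≤ δ * z.im := mul_le_mul_of_nonneg_left hz1 hδ.le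
      have e5 : 0 ≤ δ * z.im := by positivity
      have e6 : 0 ≤ ε * r := by positivity
      linarith
    show (ζ + phi Ψ u s₁ κ e₀ z).im ≤ P₀.im + c * (z.re - u) + (k + s₁ + 3 * δ) * z.im
    rw [add_im, phi_im]
    have e6 : κ * ((z.re - u) ^ 2 - z.im ^ 2) = κ * (z.re - u) ^ 2 - κ * z.im ^ 2 := by ring
    have e7 : (k + s₁ + 3 * δ) * z.im = k * z.im + s₁ * z.im + 3 * δ * z.im := by ring
    rw [e6, e7]
    linarith

/-- a point of the small window lies on a disc of the family -/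
theorem disc_point {M : Set (ℂ × ℂ)} {b m : ℝ} {Ψ : ℂ → ℂ} {u ρ : ℝ} {P₀ : ℂ} {c k c₀ ε : ℝ}
    (hC : Cmp M b m Ψ u ρ P₀ c k c₀ ε) {s₁ δ Λ κ e₀ : ℝ} (hδ : 0 < δ) (hc₀ : 0 < c₀)
    (hc1 : c₀ ≤ 1 / 2) (hε : 0 ≤ ε) (hε1 : 8 * ε ≤ δ * c₀)
    (hΛ : 1 + |c| + |k| + 2 * ε + |s₁| + 4 * δ ≤ Λ) (hΛc : c₀ * Λ ≤ 1 / 2) {r : ℝ} (hr : 0 < r)
    (hrρ : r < ρ) (hκr : κ * r = 2 * δ) (hκ : 0 < κ) (he0 : 0 ≤ e₀) {y y' r' : ℝ}
    (hy : |y' - y| ≤ r / 2) (hr' : 0 < r') (hrr : 4 * r' ≤ c₀ * r)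
    (he1 : e₀ < δ * c₀ * r' / 4) {t w : ℂ}
    (h : (t, w) ∈ Win b u P₀.im c y' r' (k + s₁ - δ) c₀ Λ) :
    (t - phi Ψ u s₁ κ e₀ w).im < 0 ∧ |(t - phi Ψ u s₁ κ e₀ w).re - (y - P₀.re)| < r := by
  obtain ⟨hw1, hw2, hw3, ht1, ht2, ht3⟩ := h
  simp only at hw1 hw2 hw3 ht1 ht2 ht3
  have hwim : 0 < w.im := lt_of_lt_of_le (by positivity) hw2
  have hcr : c₀ * r ≤ 1 / 2 * r := mul_le_mul_of_nonneg_right hc1 hr.le
  have hr'r : r' < r := by linarith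
  have hX : |w.re - u| < r := by linarith
  have a5 : c₀ * |w.re - u| ≤ w.im := (mul_le_mul_of_nonneg_left hw1 hc₀.le).trans hw2
  obtain ⟨n1, n2⟩ := hC.re_im hε (r := r') (by linarith) hwim (by linarith) a5 hw1 hw3
  have hκr' : κ * r' ≤ δ * c₀ / 2 := by
    have e1 : κ * (4 * r') ≤ κ * (c₀ * r) := mul_le_mul_of_nonneg_left hrr hκ.le
    have e2 : κ * (c₀ * r) = c₀ * (κ * r) := by ring
    rw [e2, hκr] at e1
    linarith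
  have hX2 : (w.re - u) ^ 2 ≤ r' ^ 2 := by
    rw [← sq_abs (w.re - u)]
    exact pow_le_pow_left₀ (abs_nonneg _) hw1 2
  have hκX : κ * (w.re - u) ^ 2 ≤ δ * c₀ * r' / 2 := by
    have e1 : κ * (w.re - u) ^ 2 ≤ κ * r' ^ 2 := mul_le_mul_of_nonneg_left hX2 hκ.le
    have e2 : κ * r' * r' ≤ δ * c₀ / 2 * r' := mul_le_mul_of_nonneg_right hκr' hr'.le
    have e3 : κ * r' ^ 2 = κ * r' * r' := by ring
    linarith
  constructor
  · rw [sub_im, phi_im]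
    have e1 := (abs_le.1 n2).1
    have e2 : 2 * ε * r' ≤ δ * c₀ * r' / 4 := by
      have e3 : 8 * ε * r' ≤ δ * c₀ * r' := mul_le_mul_of_nonneg_right hε1 hr'.le
      linarith
    have e4 : δ * (c₀ * r') ≤ δ * w.im := mul_le_mul_of_nonneg_left hw2 hδ.le
    have e5 : 0 ≤ κ * w.im ^ 2 := by positivity
    have e6 : κ * ((w.re - u) ^ 2 - w.im ^ 2) = κ * (w.re - u) ^ 2 - κ * w.im ^ 2 := by ring
    have e7 : (k + s₁ - δ) * w.im = k * w.im + s₁ * w.im - δ * w.im := by ring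
    rw [e7] at ht3
    rw [e6]
    linarith
  · have e0 := phi_re_bound hC hε (s₁ := s₁) (e₀ := e₀) hκ (by linarith) hw1 hwim hw3
      (by linarith) a5
    have e01 : 2 * (κ * r') * r' ≤ 4 * δ * r' := by
      have e6 : 2 * (κ * r') * r' ≤ 2 * (δ * c₀ / 2) * r' := by
        apply mul_le_mul_of_nonneg_right _ hr'.le
        linarith
      have e7 : δ * c₀ * r' ≤ δ * 4 * r' := by
        apply mul_le_mul_of_nonneg_right _ hr'.le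
        apply mul_le_mul_of_nonneg_left _ hδ.le
        linarith
      linarith
    have e6 : (t - phi Ψ u s₁ κ e₀ w).re - (y - P₀.re) = ((t.re - y') + (y' - y)) -
        ((phi Ψ u s₁ κ e₀ w).re - P₀.re) := by
      rw [sub_re]; ring
    rw [e6]
    have e7 := abs_sub ((t.re - y') + (y' - y)) ((phi Ψ u s₁ κ e₀ w).re - P₀.re)
    have e12 := abs_add_le (t.re - y') (y' - y)
    have e10 : (1 + |c| + |k| + 2 * ε + |s₁| + 4 * δ) * r' ≤ Λ * r' :=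
      mul_le_mul_of_nonneg_right hΛ hr'.le
    have e11 : (1 + |c| + |k| + 2 * ε + |s₁| + 4 * δ) * r' =
      r' + (|c| + |k| + 2 * ε) * r' + |s₁| * r' + 4 * δ * r' := by ring
    have hΛ0 : 0 ≤ Λ := by
      have := abs_nonneg c
      have := abs_nonneg k
      have := abs_nonneg s₁
      linarith
    have e13 : Λ * (4 * r') ≤ Λ * (c₀ * r) := mul_le_mul_of_nonneg_left hrr hΛ0
    have e14 : (c₀ * Λ) * r ≤ 1 / 2 * r := mul_le_mul_of_nonneg_right hΛc hr.le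
    have e15 : Λ * (c₀ * r) = (c₀ * Λ) * r := by ring
    linarith

/-- estimates on the rectangle -/
theorem rect_est {u r η κ s₁ δ : ℝ} (hη : 0 < η) (hκ : 0 < κ) (hκr2 : κ * r ^ 2 = 2 * δ * r)
    {z : ℂ} (hz : z ∈ Rc (u - r) (u + r) η r) : (|z.re - u| ≤ r ∧ 0 < z.im ∧ z.im ≤ r) ∧
      (κ * (z.re - u) ^ 2 ≤ 2 * δ * r ∧ 0 ≤ κ * (z.re - u) ^ 2) ∧
      (κ * z.im ^ 2 ≤ 2 * δ * r ∧ 0 ≤ κ * z.im ^ 2) ∧
      (s₁ * z.im ≤ |s₁| * z.im ∧ -(|s₁| * r) ≤ s₁ * z.im) ∧ |s₁| * z.im ≤ |s₁| * r := by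
  have hle : |z.re - u| ≤ r := abs_le.2 ⟨by linarith [hz.1.1], by linarith [hz.1.2]⟩
  have h0 : 0 < z.im := by linarith [hz.2.1]
  have h1 : z.im ≤ r := hz.2.2
  have hX : (z.re - u) ^ 2 ≤ r ^ 2 := by
    rw [← sq_abs (z.re - u)]
    exact pow_le_pow_left₀ (abs_nonneg _) hle 2
  have hY : z.im ^ 2 ≤ r ^ 2 := pow_le_pow_left₀ h0.le h1 2
  have e1 : κ * (z.re - u) ^ 2 ≤ κ * r ^ 2 := mul_le_mul_of_nonneg_left hX hκ.le
  have e2 : κ * z.im ^ 2 ≤ κ * r ^ 2 := mul_le_mul_of_nonneg_left hY hκ.le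
  have e3 : s₁ * z.im ≤ |s₁| * z.im := mul_le_mul_of_nonneg_right (le_abs_self _) h0.le
  have e4 : -|s₁| * z.im ≤ s₁ * z.im := mul_le_mul_of_nonneg_right (neg_abs_le _) h0.le
  have e5 : |s₁| * z.im ≤ |s₁| * r := mul_le_mul_of_nonneg_left h1 (abs_nonneg _)
  exact ⟨⟨hle, h0, h1⟩, ⟨by linarith, by positivity⟩, ⟨by linarith, by positivity⟩,
    ⟨e3, by linarith⟩, e5⟩

/-- choice of the lower side of the rectangle -/
theorem exists_eta {s₁ κ A B C : ℝ} (hA : 0 < A) (hB : 0 < B) (hC : 0 < C) :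
    ∃ η : ℝ, 0 < η ∧ η < C ∧ |s₁| * η + κ * η ^ 2 < A ∧ |s₁| * η + κ * η ^ 2 < B := by
  have hten : Tendsto (fun η : ℝ => |s₁| * η + κ * η ^ 2) (𝓝[>] 0) (𝓝 0) := by
    have : Continuous fun η : ℝ => |s₁| * η + κ * η ^ 2 := by fun_prop
    have h0 := this.tendsto 0
    simp only [mul_zero, ne_eq, OfNat.ofNat_ne_zero, not_false_eq_true, zero_pow, add_zero] at h0
    exact h0.mono_left nhdsWithin_le_nhds
  have hev : ∀ᶠ η : ℝ in 𝓝[>] 0, 0 < η ∧ η < C ∧ |s₁| * η + κ * η ^ 2 < A ∧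
      |s₁| * η + κ * η ^ 2 < B := by
    have h1 := hten.eventually (gt_mem_nhds hA)
    have h2 := hten.eventually (gt_mem_nhds hB)
    have h3 : ∀ᶠ η : ℝ in 𝓝[>] 0, η < C := nhdsWithin_le_nhds (gt_mem_nhds hC)
    have h4 : ∀ᶠ η : ℝ in 𝓝[>] 0, 0 < η := self_mem_nhdsWithin
    filter_upwards [h1, h2, h3, h4] with η a1 a2 a3 a4
    exact ⟨a4, a3, a1, a2⟩
  exact hev.exists

theorem isOpen_box (u ρ : ℝ) : IsOpen {w : ℂ | |w.re - u| < ρ ∧ 0 < w.im ∧ w.im < ρ} := by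
  have a1 : IsOpen {w : ℂ | |w.re - u| < ρ} := isOpen_lt (by fun_prop) continuous_const
  have a2 : IsOpen {w : ℂ | 0 < w.im} := isOpen_lt continuous_const continuous_im
  have a3 : IsOpen {w : ℂ | w.im < ρ} := isOpen_lt continuous_im continuous_const
  exact a1.inter (a2.inter a3)

/-- the Hartogs figure of the propagation lemma -/
theorem prop_core {M : Set (ℂ × ℂ)} {b m : ℝ} {Ψ : ℂ → ℂ} {u ρ : ℝ} {P₀ : ℂ} {c k c₀ ε : ℝ}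
    (hM : RH b M) (hC : Cmp M b m Ψ u ρ P₀ c k c₀ ε) {s₁ δ Λ : ℝ} (hbm : b < m) (hδ : 0 < δ)
    (hc₀ : 0 < c₀) (hc1 : c₀ ≤ 1 / 2) (hε : 0 ≤ ε) (hε1 : 8 * ε ≤ δ * c₀) (hs : |s₁| * c₀ ≤ δ)
    (hΛ : 1 + |c| + |k| + 2 * ε + |s₁| + 4 * δ ≤ Λ) {r : ℝ} (hr : 0 < r)
    (hrρ : r < ρ) (hr1 : (|s₁| + 2 * δ) * r ≤ (m - b) / 16) {y : ℝ}
    (hwin : Win b u P₀.im c y r (k + s₁ + 3 * δ) c₀ Λ ⊆ M) {κ η : ℝ} (hκr : κ * r = 2 * δ)
    (hκ : 0 < κ) (hη : 0 < η) (hηr : η < r) (he2 : |s₁| * η + κ * η ^ 2 < (m - b) / 16)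
    {ζ : ℂ} (h1 : |ζ.re - (y - P₀.re)| < r) (h2 : -((m - b) / 4) < ζ.im) (h3 : ζ.im < 0) {w : ℂ}
    (hw : w ∈ Ro (u - r) (u + r) η r) :
    (ζ + phi Ψ u s₁ κ (|s₁| * η + κ * η ^ 2) w, w) ∈ M := by
  have he0 : 0 ≤ |s₁| * η + κ * η ^ 2 := by positivity
  have hκr2 : κ * r ^ 2 = 2 * δ * r := by rw [pow_two, ← mul_assoc, hκr]
  have hdist : (|s₁| + 2 * δ) * r = |s₁| * r + 2 * δ * r := by ring
  have hRU : Rc (u - r) (u + r) η r ⊆ {w : ℂ | |w.re - u| < ρ ∧ 0 < w.im ∧ w.im < ρ} := by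
    intro z hz
    have hle : |z.re - u| ≤ r := abs_le.2 ⟨by linarith [hz.1.1], by linarith [hz.1.2]⟩
    exact ⟨by linarith, by linarith [hz.2.1], by linarith [hz.2.2]⟩
  have habove : ∀ ζ : ℂ, -((m - b) / 4) < ζ.im → ∀ z ∈ Rc (u - r) (u + r) η r,
      b < (ζ + phi Ψ u s₁ κ (|s₁| * η + κ * η ^ 2) z).im := by
    intro ζ hζ z hz
    obtain ⟨⟨a1, a2, a3⟩, ⟨a4, a5⟩, ⟨a6, a7⟩, ⟨a8, a9⟩, a10⟩ := rect_est (s₁ := s₁) hη hκ hκr2 hz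
    have hb := hC.bdd z (by linarith) a2 (by linarith)
    rw [add_im, phi_im]
    linarith
  have hbase : ∀ ζ : ℂ, -((m - b) / 4) < ζ.im → ∀ z ∈ Rc (u - r) (u + r) η r,
      ζ.im + s₁ * z.im - κ * ((z.re - u) ^ 2 - z.im ^ 2) - (|s₁| * η + κ * η ^ 2) < 0 →
      (ζ + phi Ψ u s₁ κ (|s₁| * η + κ * η ^ 2) z, z) ∈ M := by
    intro ζ hζ z hz hlt
    obtain ⟨⟨a1, a2, a3⟩, -⟩ := rect_est (s₁ := s₁) hη hκ hκr2 hz
    apply hC.base _ _ (by linarith) a2 (by linarith) (habove ζ hζ z hz)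
    rw [add_im, phi_im]
    linarith
  refine hM.har (phi Ψ u s₁ κ (|s₁| * η + κ * η ^ 2)) _ (u - r) (u + r) η r (y - P₀.re) r
    ((m - b) / 4) (isOpen_box u ρ) (phi_diff hC.hol _ _ _ _) hRU (by linarith) ?_ ?_ ζ h1 h2 h3 w hw
  · intro ζ hζ1 hζ2 hζ3 z hz hz'
    obtain ⟨⟨a1, a2, a3⟩, ⟨a4, a5⟩, ⟨a6, a7⟩, ⟨a8, a9⟩, a10⟩ := rect_est (s₁ := s₁) hη hκ hκr2 hz
    rcases mem_bd hz hz' with h | h | h
    · have hXr : (z.re - u) ^ 2 = r ^ 2 := by rw [← sq_abs (z.re - u), h]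
      by_cases hzc : c₀ * r ≤ z.im
      · apply hwin
        apply mem_win hC hδ hc₀ hc1 hε hε1 hΛ hr hrρ hκr hκ he0 hζ1 hζ3 a1 a2 a3 hzc _
          (habove ζ hζ2 z hz)
        rw [hXr]
        have e1 : 0 ≤ 2 * δ * z.im := by positivity
        linarith
      · push Not at hzc
        apply hbase ζ hζ2 z hz
        rw [hXr]
        have e1 : |s₁| * z.im ≤ |s₁| * (c₀ * r) := mul_le_mul_of_nonneg_left hzc.le (abs_nonneg _)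
        have e2 : (|s₁| * c₀) * r ≤ δ * r := mul_le_mul_of_nonneg_right hs hr.le
        have e3 : z.im ^ 2 ≤ (c₀ * r) ^ 2 := pow_le_pow_left₀ a2.le hzc.le 2
        have e4 : (c₀ * r) ^ 2 ≤ (1 / 2 * r) ^ 2 := pow_le_pow_left₀ (by positivity)
          (mul_le_mul_of_nonneg_right hc1 hr.le) 2
        have e5 : κ * z.im ^ 2 ≤ κ * (1 / 2 * r) ^ 2 :=
          mul_le_mul_of_nonneg_left (e3.trans e4) hκ.le
        have e6 : κ * (1 / 2 * r) ^ 2 = (κ * r ^ 2) / 4 := by ring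
        rw [e6, hκr2] at e5
        have e7 : κ * (r ^ 2 - z.im ^ 2) = κ * r ^ 2 - κ * z.im ^ 2 := by ring
        rw [e7, hκr2]
        have e8 : |s₁| * (c₀ * r) = (|s₁| * c₀) * r := by ring
        have e9 : 0 < δ * r := by positivity
        linarith
    · apply hbase ζ hζ2 z hz
      have e7 : κ * ((z.re - u) ^ 2 - z.im ^ 2) = κ * (z.re - u) ^ 2 - κ * z.im ^ 2 := by ring
      rw [e7]
      rw [h] at a8 ⊢
      linarith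
    · apply hwin
      apply mem_win hC hδ hc₀ hc1 hε hε1 hΛ hr hrρ hκr hκ he0 hζ1 hζ3 a1 a2 a3 _ _
        (habove ζ hζ2 z hz)
      · rw [h]
        have := mul_le_mul_of_nonneg_right hc1 hr.le
        linarith
      · rw [h, hκr2]; linarith
  · intro ζ hζ1 hζ2 hζ3 z hz
    obtain ⟨⟨a1, a2, a3⟩, ⟨a4, a5⟩, ⟨a6, a7⟩, ⟨a8, a9⟩, a10⟩ := rect_est (s₁ := s₁) hη hκ hκr2 hz
    apply hbase ζ hζ2 z hz
    linarith

/-- **Propagation lemma.**  One window at the scale `r` gives the windows at all smaller scales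
`r' ≤ (c₀ / 4) r`, with the slope `4 δ` smaller. -/
theorem prop_window {M : Set (ℂ × ℂ)} {b m : ℝ} {Ψ : ℂ → ℂ} {u ρ : ℝ} {P₀ : ℂ} {c k c₀ ε : ℝ}
    (hM : RH b M) (hC : Cmp M b m Ψ u ρ P₀ c k c₀ ε) {s₁ δ Λ : ℝ} (hbm : b < m) (hδ : 0 < δ)
    (hc₀ : 0 < c₀) (hc1 : c₀ ≤ 1 / 2) (hε : 0 ≤ ε) (hε1 : 8 * ε ≤ δ * c₀) (hs : |s₁| * c₀ ≤ δ)
    (hΛ : 1 + |c| + |k| + 2 * ε + |s₁| + 4 * δ ≤ Λ) (hΛc : c₀ * Λ ≤ 1 / 2) {r : ℝ} (hr : 0 < r)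
    (hrρ : r < ρ) (hr1 : (|s₁| + 2 * δ) * r ≤ (m - b) / 16) {y : ℝ}
    (hwin : Win b u P₀.im c y r (k + s₁ + 3 * δ) c₀ Λ ⊆ M) {y' r' : ℝ} (hy : |y' - y| ≤ r / 2)
    (hr' : 0 < r') (hrr : 4 * r' ≤ c₀ * r) :
    Win b u P₀.im c y' r' (k + s₁ - δ) c₀ Λ ⊆ M := by
  rintro ⟨t, w⟩ hp
  obtain ⟨hw1, hw2, hw3, ht1, ht2, ht3⟩ := id hp
  simp only at hw1 hw2 hw3 ht1 ht2 ht3
  set κ : ℝ := 2 * δ / r with hκd
  have hκr : κ * r = 2 * δ := by rw [hκd]; field_simp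
  have hκ : 0 < κ := by rw [hκd]; positivity
  have hwim : 0 < w.im := lt_of_lt_of_le (by positivity) hw2
  have hcr : c₀ * r ≤ 1 / 2 * r := mul_le_mul_of_nonneg_right hc1 hr.le
  have hr'r : r' < r := by linarith
  obtain ⟨η, hη, hη1, he1, he2⟩ := exists_eta (s₁ := s₁) (κ := κ)
    (show (0 : ℝ) < δ * c₀ * r' / 4 by positivity) (show (0 : ℝ) < (m - b) / 16 by linarith) hwim
  have he0 : 0 ≤ |s₁| * η + κ * η ^ 2 := by positivity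
  obtain ⟨d1, d2⟩ := disc_point hC hδ hc₀ hc1 hε hε1 hΛ hΛc hr hrρ hκr hκ he0 hy hr' hrr he1 hp
  have hXl := abs_lt.1 (lt_of_le_of_lt hw1 hr'r)
  have hwRo : w ∈ Ro (u - r) (u + r) η r :=
    ⟨⟨by linarith, by linarith⟩, hη1, by linarith⟩
  have key := fun ζ h1 h2 h3 => prop_core hM hC hbm hδ hc₀ hc1 hε hε1 hs hΛ hr hrρ hr1 hwin hκr hκ
    hη (by linarith) he2 (ζ := ζ) h1 h2 h3 hwRo
  set φw : ℂ := phi Ψ u s₁ κ (|s₁| * η + κ * η ^ 2) w with hφw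
  by_cases hζβ : -((m - b) / 4) < (t - φw).im
  · have := key (t - φw) d2 hζβ d1
    rwa [sub_add_cancel] at this
  · push Not at hζβ
    have h1 := key (((t - φw).re : ℂ) + ((-(m - b) / 8 : ℝ) : ℂ) * I) (by simpa using d2)
      (by simp; linarith) (by simp; linarith)
    have h2 := hM.dn.down _ _ t.im h1 ht2 (by
      rw [sub_im] at hζβ
      simp
      linarith)
    have h3 : ((((((t - φw).re : ℂ) + ((-(m - b) / 8 : ℝ) : ℂ) * I) + φw).re : ℂ) +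
        t.im * I) = t := by
      apply Complex.ext
      · simp
      · simp
    rwa [h3] at h2

end Vale.Agent.P097.H85
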