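import Vale.Agent.P097.H543.Hartogs

/-! # P097 / ALPHA, row R1, part 1: the Cauchy formula on a rectangle, with parameters -/

set_option linter.all false

open scoped ComplexConjugate Topology
open Filter Metric Set Complex

namespace Vale.Agent.P097.H85

open Vale.Agent.P097.TA Vale.Agent.P097.H543

/-- the closed rectangle -/
def Rc (x₀ x₁ y₀ y₁ : ℝ) : Set ℂ := {z | (x₀ ≤ z.re ∧ z.re ≤ x₁) ∧ y₀ ≤ z.im ∧ z.im ≤ y₁}

/-- the open rectangle -/
def Ro (x₀ x₁ y₀ y₁ : ℝ) : Set ℂ := {z | (x₀ < z.re ∧ z.re < x₁) ∧ y₀ < z.im ∧ z.im < y₁}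

theorem isOpen_Ro (x₀ x₁ y₀ y₁ : ℝ) : IsOpen (Ro x₀ x₁ y₀ y₁) := by
  have h1 : IsOpen {z : ℂ | x₀ < z.re} := isOpen_lt continuous_const continuous_re
  have h2 : IsOpen {z : ℂ | z.re < x₁} := isOpen_lt continuous_re continuous_const
  have h3 : IsOpen {z : ℂ | y₀ < z.im} := isOpen_lt continuous_const continuous_im
  have h4 : IsOpen {z : ℂ | z.im < y₁} := isOpen_lt continuous_im continuous_const
  exact (h1.inter h2).inter (h3.inter h4)

theorem Ro_sub (x₀ x₁ y₀ y₁ : ℝ) : Ro x₀ x₁ y₀ y₁ ⊆ Rc x₀ x₁ y₀ y₁ :=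
  fun _ h => ⟨⟨h.1.1.le, h.1.2.le⟩, h.2.1.le, h.2.2.le⟩

/-- the boundary integral -/
noncomputable def bdi (x₀ x₁ y₀ y₁ : ℝ) (F : ℂ → ℂ) : ℂ :=
  (((∫ x in x₀..x₁, F (x + y₀ * I)) - ∫ x in x₀..x₁, F (x + y₁ * I)) +
    I • ∫ y in y₀..y₁, F (x₁ + y * I)) - I • ∫ y in y₀..y₁, F (x₀ + y * I)

theorem bdi_congr {x₀ x₁ y₀ y₁ : ℝ} (hx : x₀ ≤ x₁) (hy : y₀ ≤ y₁) {F G : ℂ → ℂ}
    (h : ∀ z ∈ Rc x₀ x₁ y₀ y₁, z ∉ Ro x₀ x₁ y₀ y₁ → F z = G z) :
    bdi x₀ x₁ y₀ y₁ F = bdi x₀ x₁ y₀ y₁ G := by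
  unfold bdi
  have h1 : (∫ x in x₀..x₁, F (x + y₀ * I)) = ∫ x in x₀..x₁, G (x + y₀ * I) := by
    apply intervalIntegral.integral_congr
    intro x hx'
    rw [uIcc_of_le hx] at hx'
    apply h
    · simp only [Rc, mem_ofPred_eq, add_re, ofReal_re, mul_re, I_re, mul_zero, ofReal_im, I_im,
        mul_one, sub_self, add_zero, add_im, mul_im, zero_add]
      exact ⟨⟨hx'.1, hx'.2⟩, le_refl _, hy⟩
    · intro hh
      simp only [Ro, mem_ofPred_eq, add_re, ofReal_re, mul_re, I_re, mul_zero, ofReal_im, I_im,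
        mul_one, sub_self, add_zero, add_im, mul_im, zero_add] at hh
      exact lt_irrefl _ hh.2.1
  have h2 : (∫ x in x₀..x₁, F (x + y₁ * I)) = ∫ x in x₀..x₁, G (x + y₁ * I) := by
    apply intervalIntegral.integral_congr
    intro x hx'
    rw [uIcc_of_le hx] at hx'
    apply h
    · simp only [Rc, mem_ofPred_eq, add_re, ofReal_re, mul_re, I_re, mul_zero, ofReal_im, I_im,
        mul_one, sub_self, add_zero, add_im, mul_im, zero_add]
      exact ⟨⟨hx'.1, hx'.2⟩, hy, le_refl _⟩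
    · intro hh
      simp only [Ro, mem_ofPred_eq, add_re, ofReal_re, mul_re, I_re, mul_zero, ofReal_im, I_im,
        mul_one, sub_self, add_zero, add_im, mul_im, zero_add] at hh
      exact lt_irrefl _ hh.2.2
  have h3 : (∫ y in y₀..y₁, F (x₁ + y * I)) = ∫ y in y₀..y₁, G (x₁ + y * I) := by
    apply intervalIntegral.integral_congr
    intro y hy'
    rw [uIcc_of_le hy] at hy'
    apply h
    · simp only [Rc, mem_ofPred_eq, add_re, ofReal_re, mul_re, I_re, mul_zero, ofReal_im, I_im,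
        mul_one, sub_self, add_zero, add_im, mul_im, zero_add]
      exact ⟨⟨hx, le_refl _⟩, hy'.1, hy'.2⟩
    · intro hh
      simp only [Ro, mem_ofPred_eq, add_re, ofReal_re, mul_re, I_re, mul_zero, ofReal_im, I_im,
        mul_one, sub_self, add_zero, add_im, mul_im, zero_add] at hh
      exact lt_irrefl _ hh.1.2
  have h4 : (∫ y in y₀..y₁, F (x₀ + y * I)) = ∫ y in y₀..y₁, G (x₀ + y * I) := by
    apply intervalIntegral.integral_congr
    intro y hy'
    rw [uIcc_of_le hy] at hy'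
    apply h
    · simp only [Rc, mem_ofPred_eq, add_re, ofReal_re, mul_re, I_re, mul_zero, ofReal_im, I_im,
        mul_one, sub_self, add_zero, add_im, mul_im, zero_add]
      exact ⟨⟨le_refl _, hx⟩, hy'.1, hy'.2⟩
    · intro hh
      simp only [Ro, mem_ofPred_eq, add_re, ofReal_re, mul_re, I_re, mul_zero, ofReal_im, I_im,
        mul_one, sub_self, add_zero, add_im, mul_im, zero_add] at hh
      exact lt_irrefl _ hh.1.1
  rw [h1, h2, h3, h4]

/-- winding number of the rectangle is not zero -/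
theorem bdi_kernel_ne {x₀ x₁ y₀ y₁ : ℝ} {a : ℂ} (ha : a ∈ Ro x₀ x₁ y₀ y₁) :
    bdi x₀ x₁ y₀ y₁ (fun z => (z - a)⁻¹) ≠ 0 := by
  have hx : x₀ < x₁ := ha.1.1.trans ha.1.2
  have hy : y₀ < y₁ := ha.2.1.trans ha.2.2
  have him : ∀ (α β : ℝ) (F : ℝ → ℂ), IntervalIntegrable F MeasureTheory.volume α β →
      (∫ x in α..β, F x).im = ∫ x in α..β, (F x).im := by
    intro α β F hF
    exact (Complex.imCLM.intervalIntegral_comp_comm hF).symm
  have hre : ∀ (α β : ℝ) (F : ℝ → ℂ), IntervalIntegrable F MeasureTheory.volume α β →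
      (∫ x in α..β, F x).re = ∫ x in α..β, (F x).re := by
    intro α β F hF
    exact (Complex.reCLM.intervalIntegral_comp_comm hF).symm
  -- horizontal sides
  have hor : ∀ y : ℝ, y ≠ a.im → Continuous fun x : ℝ => ((x : ℂ) + y * I - a)⁻¹ := by
    intro y hy
    apply Continuous.inv₀ (by fun_prop)
    intro x h
    apply hy
    have := congrArg Complex.im h
    simp at this
    linarith
  have ver : ∀ x : ℝ, x ≠ a.re → Continuous fun y : ℝ => ((x : ℂ) + y * I - a)⁻¹ := by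
    intro x hx
    apply Continuous.inv₀ (by fun_prop)
    intro y h
    apply hx
    have := congrArg Complex.re h
    simp at this
    linarith
  have hns : ∀ x y : ℝ, (x ≠ a.re ∨ y ≠ a.im) → 0 < Complex.normSq ((x : ℂ) + y * I - a) := by
    intro x y h
    apply Complex.normSq_pos.2
    intro h0
    have h1 := congrArg Complex.re h0
    have h2 := congrArg Complex.im h0
    simp at h1 h2
    rcases h with h | h
    · exact h (by linarith)
    · exact h (by linarith)
  intro h0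
  have h1 := congrArg Complex.im h0
  unfold bdi at h1
  have e1 := (hor y₀ ha.2.1.ne)
  have e2 := (hor y₁ ha.2.2.ne')
  have e3 := (ver x₁ ha.1.2.ne')
  have e4 := (ver x₀ ha.1.1.ne)
  simp only [smul_eq_mul, sub_im, add_im, mul_im, I_re, I_im, zero_mul, one_mul, zero_add,
    zero_im] at h1
  rw [him _ _ _ (e1.intervalIntegrable _ _), him _ _ _ (e2.intervalIntegrable _ _),
    hre _ _ _ (e3.intervalIntegrable _ _), hre _ _ _ (e4.intervalIntegrable _ _)] at h1
  have p1 : 0 < ∫ x in x₀..x₁, (((x : ℂ) + y₀ * I - a)⁻¹).im := by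
    apply intervalIntegral.intervalIntegral_pos_of_pos
      ((Complex.continuous_im.comp e1).intervalIntegrable _ _) _ hx
    intro x
    show 0 < (((x : ℂ) + y₀ * I - a)⁻¹).im
    rw [Complex.inv_im]
    apply div_pos _ (hns _ _ (Or.inr ha.2.1.ne))
    simp
    exact ha.2.1
  have p2 : 0 < ∫ x in x₀..x₁, -(((x : ℂ) + y₁ * I - a)⁻¹).im := by
    apply intervalIntegral.intervalIntegral_pos_of_pos
      ((Complex.continuous_im.comp e2).neg.intervalIntegrable _ _) _ hx
    intro x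
    show 0 < -(((x : ℂ) + y₁ * I - a)⁻¹).im
    rw [Complex.inv_im, neg_div, neg_neg]
    apply div_pos _ (hns _ _ (Or.inr ha.2.2.ne'))
    simp
    exact ha.2.2
  have p3 : 0 < ∫ y in y₀..y₁, (((x₁ : ℂ) + y * I - a)⁻¹).re := by
    apply intervalIntegral.intervalIntegral_pos_of_pos
      ((Complex.continuous_re.comp e3).intervalIntegrable _ _) _ hy
    intro x
    show 0 < (((x₁ : ℂ) + x * I - a)⁻¹).re
    rw [Complex.inv_re]
    apply div_pos _ (hns _ _ (Or.inl ha.1.2.ne'))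
    simp
    exact ha.1.2
  have p4 : 0 < ∫ y in y₀..y₁, -(((x₀ : ℂ) + y * I - a)⁻¹).re := by
    apply intervalIntegral.intervalIntegral_pos_of_pos
      ((Complex.continuous_re.comp e4).neg.intervalIntegrable _ _) _ hy
    intro x
    show 0 < -(((x₀ : ℂ) + x * I - a)⁻¹).re
    rw [Complex.inv_re, ← neg_div]
    apply div_pos _ (hns _ _ (Or.inl ha.1.1.ne))
    simp
    exact ha.1.1
  rw [intervalIntegral.integral_neg] at p2 p4
  linarith

/-- Cauchy formula on the rectangle, unnormalised -/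
theorem bdi_cauchy {x₀ x₁ y₀ y₁ : ℝ} {a : ℂ} (ha : a ∈ Ro x₀ x₁ y₀ y₁) {g : ℂ → ℂ}
    (hg : ∀ z ∈ Rc x₀ x₁ y₀ y₁, DifferentiableAt ℂ g z) :
    bdi x₀ x₁ y₀ y₁ (fun z => (z - a)⁻¹ * g z) =
      bdi x₀ x₁ y₀ y₁ (fun z => (z - a)⁻¹) * g a := by
  have hx : x₀ < x₁ := ha.1.1.trans ha.1.2
  have hy : y₀ < y₁ := ha.2.1.trans ha.2.2
  have hrect : (uIcc x₀ x₁ ×ℂ uIcc y₀ y₁) = Rc x₀ x₁ y₀ y₁ := by
    ext z
    rw [Complex.mem_reProdIm, uIcc_of_le hx.le, uIcc_of_le hy.le]
    exact Iff.rfl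
  have key := Complex.integral_boundary_rect_eq_zero_of_differentiable_on_off_countable
    (dslope g a) (⟨x₀, y₀⟩ : ℂ) (⟨x₁, y₁⟩ : ℂ) {a} (countable_singleton a)
    (by
      simp only
      rw [hrect]
      intro z hz
      apply ContinuousAt.continuousWithinAt
      by_cases hza : z = a
      · rw [hza]
        exact continuousAt_dslope_same.2 (hg a (Ro_sub _ _ _ _ ha))
      · exact (continuousAt_dslope_of_ne hza).2 (hg z hz).continuousAt)
    (by
      simp only
      rintro z ⟨hz, hza⟩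
      rw [mem_singleton_iff] at hza
      have hz' : z ∈ Rc x₀ x₁ y₀ y₁ := by
        rw [Complex.mem_reProdIm, min_eq_left hx.le, max_eq_right hx.le, min_eq_left hy.le,
          max_eq_right hy.le] at hz
        exact ⟨⟨hz.1.1.le, hz.1.2.le⟩, hz.2.1.le, hz.2.2.le⟩
      exact (differentiableAt_dslope_of_ne hza).2 (hg z hz'))
  have key2 : bdi x₀ x₁ y₀ y₁ (dslope g a) = 0 := key
  have hcong : bdi x₀ x₁ y₀ y₁ (dslope g a) =
      bdi x₀ x₁ y₀ y₁ (fun z => (z - a)⁻¹ * g z - (z - a)⁻¹ * g a) := by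
    apply bdi_congr hx.le hy.le
    intro z hz hz'
    have hza : z ≠ a := by rintro rfl; exact hz' ha
    rw [dslope_of_ne _ hza, slope_def_module, smul_eq_mul]
    ring
  rw [hcong] at key2
  have hca : ∀ γ : ℝ → ℂ, Continuous γ → ∀ α β : ℝ,
      (∀ s ∈ uIcc α β, γ s ∈ Rc x₀ x₁ y₀ y₁ ∧ γ s ≠ a) →
      IntervalIntegrable (fun s => (γ s - a)⁻¹ * g (γ s)) MeasureTheory.volume α β ∧
      IntervalIntegrable (fun s => (γ s - a)⁻¹ * g a) MeasureTheory.volume α β := by
    intro γ hγ α β h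
    have h1 : ContinuousOn (fun s => (γ s - a)⁻¹) (uIcc α β) :=
      ContinuousOn.inv₀ (hγ.sub continuous_const).continuousOn
        fun s hs => sub_ne_zero.2 (h s hs).2
    have h2 : ContinuousOn (fun s => g (γ s)) (uIcc α β) := by
      intro s hs
      exact ((hg _ (h s hs).1).continuousAt.comp hγ.continuousAt).continuousWithinAt
    exact ⟨(h1.mul h2).intervalIntegrable, (h1.mul continuousOn_const).intervalIntegrable⟩
  have c1 := hca (fun x : ℝ => (x : ℂ) + y₀ * I) (by fun_prop) x₀ x₁ (by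
    intro s hs
    rw [uIcc_of_le hx.le] at hs
    refine ⟨⟨by simpa using hs, by simp, by simpa using hy.le⟩, ?_⟩
    rintro h
    have := ha.2.1
    rw [← h] at this
    simp at this)
  have c2 := hca (fun x : ℝ => (x : ℂ) + y₁ * I) (by fun_prop) x₀ x₁ (by
    intro s hs
    rw [uIcc_of_le hx.le] at hs
    refine ⟨⟨by simpa using hs, by simpa using hy.le, by simp⟩, ?_⟩
    rintro h
    have := ha.2.2
    rw [← h] at this
    simp at this)
  have c3 := hca (fun y : ℝ => (x₁ : ℂ) + y * I) (by fun_prop) y₀ y₁ (by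
    intro s hs
    rw [uIcc_of_le hy.le] at hs
    refine ⟨⟨⟨by simpa using hx.le, by simp⟩, by simpa using hs⟩, ?_⟩
    rintro h
    have := ha.1.2
    rw [← h] at this
    simp at this)
  have c4 := hca (fun y : ℝ => (x₀ : ℂ) + y * I) (by fun_prop) y₀ y₁ (by
    intro s hs
    rw [uIcc_of_le hy.le] at hs
    refine ⟨⟨⟨by simp, by simpa using hx.le⟩, by simpa using hs⟩, ?_⟩
    rintro h
    have := ha.1.1
    rw [← h] at this
    simp at this)
  unfold bdi at key2 ⊢
  rw [intervalIntegral.integral_sub c1.1 c1.2, intervalIntegral.integral_sub c2.1 c2.2,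
    intervalIntegral.integral_sub c3.1 c3.2, intervalIntegral.integral_sub c4.1 c4.2,
    intervalIntegral.integral_mul_const, intervalIntegral.integral_mul_const,
    intervalIntegral.integral_mul_const, intervalIntegral.integral_mul_const] at key2
  simp only [smul_eq_mul] at key2 ⊢
  linear_combination key2

end Vale.Agent.P097.H85
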