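import Vale.Agent.P097.H85.PL

/-! # P097 / ALPHA, row R1, part 4: the top step and the dichotomy -/

set_option linter.all false

open scoped ComplexConjugate Topology
open Filter Metric Set Complex

namespace Vale.Agent.P097.H85

open Vale.Agent.P097.TA Vale.Agent.P097.H543

/-- the affine comparison function -/
noncomputable def aff (R₀ c u : ℝ) (w : ℂ) : ℂ := I * R₀ + I * c * (w - u)

theorem aff_im (R₀ c u : ℝ) (w : ℂ) : (aff R₀ c u w).im = R₀ + c * (w.re - u) := by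
  unfold aff
  simp only [sub_im, add_im, mul_im, mul_re, I_re, I_im, ofReal_re, ofReal_im, sub_re]
  ring

theorem aff_re (R₀ c u : ℝ) (w : ℂ) : (aff R₀ c u w).re = -(c * w.im) := by
  unfold aff
  simp only [sub_im, add_re, mul_im, mul_re, I_re, I_im, ofReal_re, ofReal_im, sub_re]
  ring

/-- estimates on the full square -/
theorem sq_est {u r κ σ A : ℝ} (hκ : 0 < κ) (hκr2 : κ * r ^ 2 = σ / 2 * r)
    {z : ℂ} (hz : z ∈ Rc (u - r) (u + r) (-r) r) : (|z.re - u| ≤ r ∧ |z.im| ≤ r) ∧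
      (κ * (z.re - u) ^ 2 ≤ σ / 2 * r ∧ 0 ≤ κ * (z.re - u) ^ 2) ∧
      (κ * z.im ^ 2 ≤ σ / 2 * r ∧ 0 ≤ κ * z.im ^ 2) ∧
      (A * z.im ≤ |A| * r ∧ -(|A| * r) ≤ A * z.im) := by
  have hle : |z.re - u| ≤ r := abs_le.2 ⟨by linarith [hz.1.1], by linarith [hz.1.2]⟩
  have h1 : |z.im| ≤ r := abs_le.2 ⟨by linarith [hz.2.1], by linarith [hz.2.2]⟩
  have hX : (z.re - u) ^ 2 ≤ r ^ 2 := by
    rw [← sq_abs (z.re - u)]
    exact pow_le_pow_left₀ (abs_nonneg _) hle 2
  have hY : z.im ^ 2 ≤ r ^ 2 := by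
    rw [← sq_abs z.im]
    exact pow_le_pow_left₀ (abs_nonneg _) h1 2
  have e1 : κ * (z.re - u) ^ 2 ≤ κ * r ^ 2 := mul_le_mul_of_nonneg_left hX hκ.le
  have e2 : κ * z.im ^ 2 ≤ κ * r ^ 2 := mul_le_mul_of_nonneg_left hY hκ.le
  have e3 : |A * z.im| ≤ |A| * r := by
    rw [abs_mul]; exact mul_le_mul_of_nonneg_left h1 (abs_nonneg _)
  have e4 := abs_le.1 e3
  exact ⟨⟨hle, h1⟩, ⟨by linarith, by positivity⟩, ⟨by linarith, by positivity⟩, e4.2, e4.1⟩

/-- **Top step.**  A window of slope `A + σ`, with the cone bound of slope `-(A - σ)` on the whole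
neighbourhood: the domain goes above the height `R₀` at `u`. -/
theorem top_step {M : Set (ℂ × ℂ)} {b u R₀ c A σ c₀ ε Λ y ρ r : ℝ} (hM : RH b M) (hb : b < R₀)
    (hσ : 0 < σ) (hc₀ : 0 < c₀) (hc1 : c₀ ≤ 1 / 2) (hcA : |2 * A - σ| * c₀ ≤ σ / 16) (hε : 0 ≤ ε)
    (hε1 : ε ≤ σ / 16) (hΛ : 1 + |c| + |A| + σ ≤ Λ) (hr : 0 < r) (hrρ : r < ρ)
    (hr1 : (|c| + 2 * |A| + 2 * σ) * r < (R₀ - b) / 8)
    (hcone : ∀ t w : ℂ, |w.re - u| < ρ → |w.im| < ρ → b < t.im →
      t.im < R₀ + c * (w.re - u) - (A - σ) * |w.im| - ε * ‖w - u‖ → (t, w) ∈ M)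
    (hwin : Win b u R₀ c y r (A + σ) c₀ Λ ⊆ M) :
    ((y : ℂ) + ((R₀ + σ * r / 16 : ℝ) : ℂ) * I, (u : ℂ)) ∈ M := by
  set κ : ℝ := σ / (2 * r) with hκd
  have hκr : κ * r = σ / 2 := by rw [hκd]; field_simp
  have hκ : 0 < κ := by rw [hκd]; positivity
  have hκr2 : κ * r ^ 2 = σ / 2 * r := by rw [pow_two, ← mul_assoc, hκr]
  set φ := phi (aff R₀ c u) u A κ (-(σ * r / 8)) with hφ
  have hφim : ∀ z, (φ z).im = R₀ + c * (z.re - u) + A * z.im - κ * (z.re - u) ^ 2 +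
      κ * z.im ^ 2 + σ * r / 8 := by
    intro z; rw [hφ, phi_im, aff_im]; ring
  have hφre : ∀ z, (φ z).re = -(c * z.im) + A * (z.re - u) + 2 * κ * ((z.re - u) * z.im) := by
    intro z; rw [hφ, phi_re, aff_re]
  have hd : DifferentiableOn ℂ φ univ := by
    apply phi_diff
    unfold aff
    fun_prop
  have hdist : (|c| + 2 * |A| + 2 * σ) * r = |c| * r + 2 * (|A| * r) + 2 * σ * r := by ring
  have hσr : 0 < σ * r := by positivity
  have hεr : 2 * ε * r ≤ σ * r / 8 := by nlinarith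
  have hAσ : |A - σ| ≤ |A| + σ := by
    have := abs_sub A σ
    rwa [abs_of_pos hσ] at this
  have habove : ∀ ζ : ℂ, -((R₀ - b) / 4) < ζ.im → ∀ z ∈ Rc (u - r) (u + r) (-r) r,
      b < (ζ + φ z).im := by
    intro ζ hζ z hz
    obtain ⟨⟨a1, a2⟩, ⟨a4, a5⟩, ⟨a6, a7⟩, a8, a9⟩ := sq_est (A := A) hκ hκr2 hz
    have e1 : |c * (z.re - u)| ≤ |c| * r := by
      rw [abs_mul]; exact mul_le_mul_of_nonneg_left a1 (abs_nonneg _)
    have e2 := (abs_le.1 e1).1
    have e3 : 0 ≤ |A| * r := by positivity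
    rw [add_im, hφim]
    linarith
  have hbase : ∀ ζ : ℂ, -((R₀ - b) / 4) < ζ.im → ∀ z ∈ Rc (u - r) (u + r) (-r) r,
      ζ.im + A * z.im - κ * (z.re - u) ^ 2 + κ * z.im ^ 2 + σ * r / 8 <
        -((A - σ) * |z.im|) - σ * r / 8 → (ζ + φ z, z) ∈ M := by
    intro ζ hζ z hz hlt
    obtain ⟨⟨a1, a2⟩, -⟩ := sq_est (A := A) hκ hκr2 hz
    apply hcone _ _ (by linarith) (by linarith) (habove ζ hζ z hz)
    have hn : ‖z - u‖ ≤ 2 * r := norm_le_two a1 a2
    have hn2 : ε * ‖z - u‖ ≤ σ * r / 8 := by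
      have := mul_le_mul_of_nonneg_left hn hε
      linarith
    rw [add_im, hφim]
    linarith
  have hwinz : ∀ ζ : ℂ, |ζ.re - y| < r → -((R₀ - b) / 4) < ζ.im → ζ.im < 0 →
      ∀ z ∈ Rc (u - r) (u + r) (-r) r, c₀ * r ≤ z.im →
      κ * z.im ^ 2 - κ * (z.re - u) ^ 2 + σ * r / 8 ≤ σ * z.im → (ζ + φ z, z) ∈ M := by
    intro ζ hζ1 hζ2 hζ3 z hz hz1 hz2
    obtain ⟨⟨a1, a2⟩, ⟨a4, a5⟩, ⟨a6, a7⟩, a8, a9⟩ := sq_est (A := A) hκ hκr2 hz
    apply hwin
    refine ⟨a1, hz1, (abs_le.1 a2).2, ?_, habove ζ hζ2 z hz, ?_⟩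
    · show |(ζ + φ z).re - y| ≤ Λ * r
      have e1 : |c * z.im| ≤ |c| * r := by
        rw [abs_mul]; exact mul_le_mul_of_nonneg_left a2 (abs_nonneg _)
      have e2 : |A * (z.re - u)| ≤ |A| * r := by
        rw [abs_mul]; exact mul_le_mul_of_nonneg_left a1 (abs_nonneg _)
      have e3 : |2 * κ * ((z.re - u) * z.im)| ≤ σ * r := by
        have e3 : |(z.re - u) * z.im| ≤ r * r := by
          rw [abs_mul]
          exact mul_le_mul a1 a2 (abs_nonneg _) hr.le
        rw [abs_mul, abs_of_pos (by positivity : 0 < 2 * κ)]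
        have e4 := mul_le_mul_of_nonneg_left e3 (by positivity : 0 ≤ 2 * κ)
        have e5 : 2 * κ * (r * r) = 2 * (κ * r ^ 2) := by ring
        rw [e5, hκr2] at e4
        linarith
      have e6 : (ζ + φ z).re - y = ((ζ.re - y) - c * z.im) +
          (A * (z.re - u) + 2 * κ * ((z.re - u) * z.im)) := by
        rw [add_re, hφre]; ring
      rw [e6]
      have e7 := abs_add_le ((ζ.re - y) - c * z.im) (A * (z.re - u) + 2 * κ * ((z.re - u) * z.im))
      have e8 := abs_sub (ζ.re - y) (c * z.im)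
      have e9 := abs_add_le (A * (z.re - u)) (2 * κ * ((z.re - u) * z.im))
      have e10 : (1 + |c| + |A| + σ) * r ≤ Λ * r := mul_le_mul_of_nonneg_right hΛ hr.le
      have e11 : (1 + |c| + |A| + σ) * r = r + |c| * r + |A| * r + σ * r := by ring
      linarith
    · show (ζ + φ z).im ≤ R₀ + c * (z.re - u) + (A + σ) * z.im
      rw [add_im, hφim]
      linarith
  have key := hM.har φ univ (u - r) (u + r) (-r) r y r ((R₀ - b) / 4) isOpen_univ hd
    (subset_univ _) (by linarith) ?_ ?_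
  · have h0 : (u : ℂ) ∈ Ro (u - r) (u + r) (-r) r := by
      refine ⟨⟨by simpa using hr, by simpa using hr⟩, by simpa using hr, by simpa using hr⟩
    have hsm : σ * r / 16 < (R₀ - b) / 4 := by
      have := abs_nonneg c
      have := abs_nonneg A
      have e1 : 0 ≤ |c| * r := by positivity
      have e2 : 0 ≤ |A| * r := by positivity
      linarith
    have h1 := key ((y : ℂ) + ((-(σ * r / 16) : ℝ) : ℂ) * I) (by simpa using hr)
      (by simp; linarith) (by simp; linarith) u h0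
    have h2 : ((y : ℂ) + ((-(σ * r / 16) : ℝ) : ℂ) * I) + φ u =
        (y : ℂ) + ((R₀ + σ * r / 16 : ℝ) : ℂ) * I := by
      apply Complex.ext
      · rw [add_re, hφre]; simp
      · rw [add_im, hφim]; simp; ring
    rwa [h2] at h1
  · intro ζ hζ1 hζ2 hζ3 z hz hz'
    obtain ⟨⟨a1, a2⟩, ⟨a4, a5⟩, ⟨a6, a7⟩, a8, a9⟩ := sq_est (A := A) hκ hκr2 hz
    rcases mem_bd hz hz' with h | h | h
    · have hXr : (z.re - u) ^ 2 = r ^ 2 := by rw [← sq_abs (z.re - u), h]
      have hYr : κ * z.im ^ 2 ≤ σ / 2 * |z.im| := by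
        have e1 : z.im ^ 2 = |z.im| * |z.im| := by rw [← sq_abs z.im, pow_two]
        have e2 : |z.im| * |z.im| ≤ |z.im| * r := mul_le_mul_of_nonneg_left a2 (abs_nonneg _)
        have e3 : κ * (|z.im| * |z.im|) ≤ κ * (|z.im| * r) := mul_le_mul_of_nonneg_left e2 hκ.le
        have e4 : κ * (|z.im| * r) = (κ * r) * |z.im| := by ring
        rw [e1]
        rwa [e4, hκr] at e3
      by_cases hzc : c₀ * r ≤ z.im
      · apply hwinz ζ hζ1 hζ2 hζ3 z hz hzc
        have hz0 : 0 < z.im := lt_of_lt_of_le (by positivity) hzc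
        rw [hXr, hκr2]
        rw [abs_of_pos hz0] at hYr
        have e1 : 0 < σ * z.im := by positivity
        linarith
      · push Not at hzc
        apply hbase ζ hζ2 z hz
        rw [hXr, hκr2]
        rcases le_total 0 z.im with h0 | h0
        · rw [abs_of_nonneg h0] at hYr ⊢
          have e1 : (2 * A - σ) * z.im ≤ |2 * A - σ| * (c₀ * r) :=
            mul_le_mul (le_abs_self _) hzc.le h0 (abs_nonneg _)
          have e2 : |2 * A - σ| * c₀ * r ≤ σ / 16 * r := mul_le_mul_of_nonneg_right hcA hr.le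
          have e3 : |2 * A - σ| * (c₀ * r) = |2 * A - σ| * c₀ * r := by ring
          have e4 : (2 * A - σ) * z.im = A * z.im + (A - σ) * z.im := by ring
          have e5 : κ * z.im ^ 2 ≤ σ * r / 8 := by
            have e6 : z.im ^ 2 ≤ (1 / 2 * r) ^ 2 := pow_le_pow_left₀ h0 (by nlinarith) 2
            have e7 := mul_le_mul_of_nonneg_left e6 hκ.le
            have e8 : κ * (1 / 2 * r) ^ 2 = κ * r ^ 2 / 4 := by ring
            rw [e8, hκr2] at e7
            linarith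
          linarith
        · rw [abs_of_nonpos h0] at hYr ⊢
          have e4 : A * z.im + (A - σ) * (-z.im) = σ * z.im := by ring
          have e5 : σ * z.im ≤ 0 := mul_nonpos_of_nonneg_of_nonpos hσ.le h0
          linarith
    · apply hbase ζ hζ2 z hz
      rw [h, abs_neg, abs_of_pos hr]
      have e1 : κ * (-r) ^ 2 = σ / 2 * r := by rw [neg_sq]; exact hκr2
      rw [e1]
      linarith
    · apply hwinz ζ hζ1 hζ2 hζ3 z hz
      · rw [h]
        have := mul_le_mul_of_nonneg_right hc1 hr.le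
        linarith
      · rw [h, hκr2]; linarith
  · intro ζ hζ1 hζ2 hζ3 z hz
    obtain ⟨⟨a1, a2⟩, ⟨a4, a5⟩, ⟨a6, a7⟩, a8, a9⟩ := sq_est (A := A) hκ hκr2 hz
    apply hbase ζ hζ2 z hz
    have e1 : abs ((A - σ) * abs z.im) ≤ (|A| + σ) * r := by
      rw [abs_mul, abs_abs]
      exact mul_le_mul hAσ a2 (abs_nonneg _) (by positivity)
    have e2 := (abs_le.1 e1).2
    have e3 : (|A| + σ) * r = |A| * r + σ * r := by ring
    have e4 : 0 ≤ |c| * r := by positivity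
    linarith

end Vale.Agent.P097.H85
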